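import Mathlib
import Crest.Prelude.Def_BernoulliConv

set_option autoImplicit false

open MeasureTheory ProbabilityTheory Filter Topology
open Crest.AnalysisR

namespace Crest.Agent.H8.BC

noncomputable section

instance : IsProbabilityMeasure fairCoin := by
  constructor
  simp [fairCoin, ENNReal.inv_two_add_inv_two]

/-- sign term -/
def term (c : ℝ) (n : ℕ) (b : Bool) : ℝ := if b then c ^ n else -(c ^ n)

lemma abs_term (c : ℝ) (n : ℕ) (b : Bool) : |term c n b| = |c| ^ n := by
  unfold term; split <;> simp [abs_pow]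

lemma measurable_term (c : ℝ) (n : ℕ) : Measurable (term c n) := measurable_of_finite _

lemma summable_term {c : ℝ} (hc0 : 0 < c) (hc1 : c < 1) (ε : ℕ → Bool) :
    Summable (fun n => term c n (ε n)) := by
  apply Summable.of_norm_bounded (g := fun n => c ^ n) (summable_geometric_of_lt_one hc0.le hc1)
  intro n
  rw [Real.norm_eq_abs, abs_term, abs_of_pos hc0]

lemma signedPowerSum_eq (c : ℝ) (ε : ℕ → Bool) :
    signedPowerSum c ε = ∑' n, term c n (ε n) := rfl

lemma tendsto_partial {c : ℝ} (hc0 : 0 < c) (hc1 : c < 1) (ε : ℕ → Bool) :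
    Tendsto (fun N => ∑ n ∈ Finset.range N, term c n (ε n)) atTop (𝓝 (signedPowerSum c ε)) := by
  rw [signedPowerSum_eq]
  exact (summable_term hc0 hc1 ε).hasSum.tendsto_sum_nat

lemma measurable_partial (c : ℝ) (N : ℕ) :
    Measurable (fun ε : ℕ → Bool => ∑ n ∈ Finset.range N, term c n (ε n)) := by
  apply Finset.measurable_sum
  intro n _
  exact (measurable_term c n).comp (measurable_pi_apply n)

lemma measurable_signedPowerSum {c : ℝ} (hc0 : 0 < c) (hc1 : c < 1) :
    Measurable (signedPowerSum c) :=
  measurable_of_tendsto_metrizable (measurable_partial c)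
    (tendsto_pi_nhds.mpr (fun ε => tendsto_partial hc0 hc1 ε))

lemma abs_signedPowerSum_le {c : ℝ} (hc0 : 0 < c) (hc1 : c < 1) (ε : ℕ → Bool) :
    |signedPowerSum c ε| ≤ (1 - c)⁻¹ := by
  rw [signedPowerSum_eq, ← tsum_geometric_of_lt_one hc0.le hc1, ← Real.norm_eq_abs]
  apply tsum_of_norm_bounded (summable_geometric_of_lt_one hc0.le hc1).hasSum
  intro n
  rw [Real.norm_eq_abs, abs_term, abs_of_pos hc0]

abbrev P : Measure (ℕ → Bool) := Measure.infinitePi (fun _ : ℕ => fairCoin)

lemma isProb_bc {c : ℝ} (hc0 : 0 < c) (hc1 : c < 1) :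
    IsProbabilityMeasure (bernoulliConvolution c) :=
  Measure.isProbabilityMeasure_map (measurable_signedPowerSum hc0 hc1).aemeasurable

lemma ae_abs_le {c : ℝ} (hc0 : 0 < c) (hc1 : c < 1) :
    bernoulliConvolution c (Set.Icc (-(1 - c)⁻¹) (1 - c)⁻¹)ᶜ = 0 := by
  unfold bernoulliConvolution
  rw [Measure.map_apply (measurable_signedPowerSum hc0 hc1) measurableSet_Icc.compl]
  have : signedPowerSum c ⁻¹' (Set.Icc (-(1 - c)⁻¹) (1 - c)⁻¹)ᶜ = ∅ := by
    ext ε
    simp only [Set.mem_preimage, Set.mem_compl_iff, Set.mem_Icc, Set.mem_empty_iff_false, iff_false,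
      not_not]
    exact abs_le.mp (abs_signedPowerSum_le hc0 hc1 ε)
  rw [this, measure_empty]

lemma charFun_one (c t : ℝ) (n : ℕ) :
    charFun (P.map (fun ε : ℕ → Bool => term c n (ε n))) t = (Real.cos (c ^ n * t) : ℂ) := by
  have h1 : P.map (fun ε : ℕ → Bool => term c n (ε n)) = fairCoin.map (term c n) := by
    have h2 : P.map (fun ε : ℕ → Bool => ε n) = fairCoin := by
      have := Measure.infinitePi_map_eval (fun _ : ℕ => fairCoin) n
      exact this
    rw [← h2, Measure.map_map (measurable_term c n) (measurable_pi_apply n)]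
    rfl
  rw [h1, charFun_apply_real, integral_map (measurable_term c n).aemeasurable (by fun_prop)]
  unfold fairCoin
  rw [integral_add_measure, integral_smul_measure, integral_smul_measure, integral_dirac,
    integral_dirac]
  · have et : term c n true = c ^ n := rfl
    have ef : term c n false = -(c ^ n) := rfl
    rw [et, ef, Complex.ofReal_cos, Complex.cos]
    push_cast
    have e1 : (t : ℂ) * ((-(c ^ n) : ℝ) : ℂ) * Complex.I = -((c : ℂ) ^ n * t) * Complex.I := by
      push_cast; ring
    have e2 : (t : ℂ) * (c : ℂ) ^ n * Complex.I = (c : ℂ) ^ n * t * Complex.I := by ring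
    rw [e2]
    push_cast at e1
    rw [e1]
    simp [ENNReal.toReal_inv]
    ring
  · exact (integrable_dirac (by simp)).smul_measure (by simp)
  · exact (integrable_dirac (by simp)).smul_measure (by simp)

lemma integral_partial (c t : ℝ) (N : ℕ) :
    ∫ ε, Complex.exp (t * (∑ n ∈ Finset.range N, term c n (ε n) : ℝ) * Complex.I) ∂P
      = ((∏ n ∈ Finset.range N, Real.cos (c ^ n * t) : ℝ) : ℂ) := by
  have hind : iIndepFun (fun (n : ℕ) (ε : ℕ → Bool) => term c n (ε n)) P :=
    iIndepFun_infinitePi (fun n => measurable_term c n)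
  have h3 := iIndepFun.charFun_map_fun_finsetSum_eq_prod (P := P) (s := Finset.range N)
    (X := fun (n : ℕ) (ε : ℕ → Bool) => term c n (ε n))
    (fun i _ => ((measurable_term c i).comp (measurable_pi_apply i)).aemeasurable)
    (hind.restrict _)
  have h4 := congrFun h3 t
  rw [charFun_apply_real, integral_map (measurable_partial c N).aemeasurable (by fun_prop)] at h4
  rw [h4]
  rw [Finset.prod_apply]
  push_cast
  apply Finset.prod_congr rfl
  intro n _
  rw [charFun_one]
  push_cast
  rfl

/-- the cosine transform -/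
def Phi (c t : ℝ) : ℝ := ∫ x, Real.cos (t * x) ∂(bernoulliConvolution c)

theorem tendsto_prod_cos {c : ℝ} (hc0 : 0 < c) (hc1 : c < 1) (t : ℝ) :
    Tendsto (fun N => ∏ n ∈ Finset.range N, Real.cos (c ^ n * t)) atTop (𝓝 (Phi c t)) := by
  have h1 : ∀ N, ∫ ε, Real.cos (t * ∑ n ∈ Finset.range N, term c n (ε n)) ∂P
      = ∏ n ∈ Finset.range N, Real.cos (c ^ n * t) := by
    intro N
    have h2 := integral_partial c t N
    have h3 := congrArg Complex.re h2
    rw [Complex.ofReal_re] at h3
    rw [← h3]
    have hint : Integrable (fun ε : ℕ → Bool =>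
        Complex.exp (t * (∑ n ∈ Finset.range N, term c n (ε n) : ℝ) * Complex.I)) P := by
      apply Integrable.of_bound (C := 1)
      · apply Measurable.aestronglyMeasurable
        have := measurable_partial c N
        fun_prop
      · filter_upwards with ε
        have : (t : ℂ) * ((∑ n ∈ Finset.range N, term c n (ε n) : ℝ) : ℂ) * Complex.I =
          ((t * ∑ n ∈ Finset.range N, term c n (ε n) : ℝ) : ℂ) * Complex.I := by push_cast; ring
        rw [this, Complex.norm_exp_ofReal_mul_I]
    have h5 := integral_re hint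
    simp only [RCLike.re_eq_complex_re] at h5
    rw [← h5]
    apply integral_congr_ae
    filter_upwards with ε
    have : (t : ℂ) * ((∑ n ∈ Finset.range N, term c n (ε n) : ℝ) : ℂ) * Complex.I =
          ((t * ∑ n ∈ Finset.range N, term c n (ε n) : ℝ) : ℂ) * Complex.I := by push_cast; ring
    rw [this, Complex.exp_ofReal_mul_I_re]
  have h6 : Phi c t = ∫ ε, Real.cos (t * signedPowerSum c ε) ∂P := by
    unfold Phi bernoulliConvolution
    rw [integral_map (measurable_signedPowerSum hc0 hc1).aemeasurable (by fun_prop)]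
  rw [h6]
  simp_rw [← h1]
  apply tendsto_integral_of_dominated_convergence (fun _ => 1)
  · intro N
    apply Measurable.aestronglyMeasurable
    have := measurable_partial c N
    fun_prop
  · exact integrable_const _
  · intro N
    filter_upwards with ε
    rw [Real.norm_eq_abs]
    exact Real.abs_cos_le_one _
  · filter_upwards with ε
    exact (Real.continuous_cos.tendsto _).comp ((tendsto_partial hc0 hc1 ε).const_mul t)

end

end Crest.Agent.H8.BC
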