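import Mathlib
import Crest.Agent.H8.BC.CosT

set_option autoImplicit false

open MeasureTheory Filter Topology Set

namespace Crest.Agent.H8.BC

noncomputable section

/-- small arguments -/
lemma tan_small {y : ℝ} (hy : |y| ≤ 1 / 4) :
    Real.cos (Real.pi * y) ≠ 0 ∧ |Real.tan (Real.pi * y)| ≤ 9 / 2 * |y| := by
  have hpi := Real.pi_pos
  have h1 : (7 / 10 : ℝ) ≤ Real.cos (Real.pi * y) := by
    rw [← Real.cos_abs, abs_mul, abs_of_pos hpi]
    have h2 : Real.cos (Real.pi / 4) ≤ Real.cos (Real.pi * |y|) := by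
      apply Real.cos_le_cos_of_nonneg_of_le_pi
      · positivity
      · linarith
      · nlinarith
    rw [Real.cos_pi_div_four] at h2
    have h3 : (7 / 5 : ℝ) ≤ √2 := by
      rw [show (7 / 5 : ℝ) = √((7 / 5) ^ 2) by rw [Real.sqrt_sq (by norm_num)]]
      exact Real.sqrt_le_sqrt (by norm_num)
    linarith
  have h4 : 0 < Real.cos (Real.pi * y) := by linarith
  refine ⟨h4.ne', ?_⟩
  rw [Real.tan_eq_sin_div_cos, abs_div, abs_of_pos h4, div_le_iff₀ h4]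
  have h5 : |Real.sin (Real.pi * y)| ≤ |Real.pi * y| := Real.abs_sin_le_abs
  rw [abs_mul, abs_of_pos hpi] at h5
  have h6 : Real.pi ≤ 3.15 := Real.pi_lt_d2.le
  have h7 : 0 ≤ |y| := abs_nonneg y
  nlinarith

structure St (β : ℝ) (α : ℂ) (A B : ℝ) (z : ℂ) (D : ℕ) (U ε : ℝ) : Prop where
  int : ∀ k : ℤ, ∃ n : ℤ, A * β ^ k + B * β ^ (-k) + (z * α ^ k).re = n
  hA : |A| ≤ 1 / 9
  hB : |B| ≤ β ^ D / 9
  hz : ‖z‖ ≤ ε
  hA1 : 1 ≤ A * β ^ D
  hU : ∀ k : ℤ, 0 ≤ k → k ≤ D →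
    Real.cos (Real.pi * (A * β ^ k)) ≠ 0 ∧ |Real.tan (Real.pi * (A * β ^ k))| ≤ U

variable {β : ℝ} {α : ℂ} {A B : ℝ} {z : ℂ} {D : ℕ} {U ε : ℝ}

lemma St.neg (h : St β α A B z D U ε) (hβ : 1 < β) {k : ℤ} (hk : k ≤ 0) :
    Real.cos (Real.pi * (A * β ^ k)) ≠ 0 ∧
      |Real.tan (Real.pi * (A * β ^ k))| ≤ 1 / 2 * β ^ k := by
  have h1 : β ^ k ≤ 1 := zpow_le_one_of_nonpos₀ hβ.le hk
  have h2 : 0 < β ^ k := zpow_pos (by linarith) k
  have h3 : |A * β ^ k| ≤ 1 / 9 * β ^ k := by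
    rw [abs_mul, abs_of_pos h2]
    exact mul_le_mul_of_nonneg_right h.hA h2.le
  have h4 := tan_small (y := A * β ^ k) (by linarith)
  exact ⟨h4.1, h4.2.trans (by linarith)⟩

lemma cos_int_sub (n : ℤ) (y : ℝ) (hy : Real.cos (Real.pi * y) ≠ 0) :
    Real.cos (Real.pi * (n - y)) ≠ 0 := by
  rw [show Real.pi * ((n : ℝ) - y) = n * Real.pi - Real.pi * y by ring, Real.cos_int_mul_pi_sub]
  apply mul_ne_zero _ hy
  exact zpow_ne_zero _ (by norm_num)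

lemma tan_int_sub (n : ℤ) (y : ℝ) :
    Real.tan (Real.pi * (n - y)) = -Real.tan (Real.pi * y) := by
  rw [show Real.pi * ((n : ℝ) - y) = n * Real.pi - Real.pi * y by ring, Real.tan_int_mul_pi_sub]

lemma St.pos (h : St β α A B z D U ε) (hβ : 1 < β) (hα : ‖α‖ = 1) (hε : ε ≤ 1 / 8)
    {k : ℤ} (hk : (D : ℤ) ≤ k) :
    Real.cos (Real.pi * (A * β ^ k)) ≠ 0 ∧
      |Real.tan (Real.pi * (A * β ^ k))| ≤ 1 / 2 * β ^ ((D : ℤ) - k) + 5 * ε := by
  obtain ⟨n, hn⟩ := h.int k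
  set y := B * β ^ (-k) + (z * α ^ k).re with hy
  have hβ0 : 0 < β := by linarith
  have h1 : β ^ ((D : ℤ) - k) ≤ 1 := zpow_le_one_of_nonpos₀ hβ.le (by linarith)
  have h2 : 0 < β ^ ((D : ℤ) - k) := zpow_pos hβ0 _
  have h3 : |y| ≤ 1 / 9 * β ^ ((D : ℤ) - k) + ε := by
    have h4 : |B * β ^ (-k)| ≤ 1 / 9 * β ^ ((D : ℤ) - k) := by
      rw [abs_mul, abs_of_pos (zpow_pos hβ0 _), zpow_sub₀ hβ0.ne', zpow_natCast, zpow_neg]
      have := h.hB
      have h5 : 0 ≤ (β ^ k)⁻¹ := by positivity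
      calc |B| * (β ^ k)⁻¹ ≤ (β ^ D / 9) * (β ^ k)⁻¹ := mul_le_mul_of_nonneg_right this h5
        _ = _ := by ring
    have h6 : |(z * α ^ k).re| ≤ ε := by
      calc |(z * α ^ k).re| ≤ ‖z * α ^ k‖ := Complex.abs_re_le_norm _
        _ = ‖z‖ := by rw [norm_mul, norm_zpow, hα, one_zpow, mul_one]
        _ ≤ ε := h.hz
    rw [hy]
    exact (abs_add_le _ _).trans (add_le_add h4 h6)
  have hε0 : 0 ≤ ε := (norm_nonneg z).trans h.hz
  have h7 := tan_small (y := y) (by linarith)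
  have h8 : A * β ^ k = n - y := by rw [hy]; linarith
  rw [h8]
  refine ⟨cos_int_sub n y h7.1, ?_⟩
  rw [tan_int_sub, abs_neg]
  refine h7.2.trans ?_
  linarith

lemma St.ne (h : St β α A B z D U ε) (hβ : 1 < β) (hα : ‖α‖ = 1) (hε : ε ≤ 1 / 8) (k : ℤ) :
    Real.cos (Real.pi * (A * β ^ k)) ≠ 0 := by
  rcases le_total k 0 with hk | hk
  · exact (h.neg hβ hk).1
  · rcases le_total k D with hk2 | hk2
    · exact (h.hU k hk hk2).1
    · exact (h.pos hβ hα hε hk2).1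

lemma St.le_D (h : St β α A B z D U ε) (hβ : 1 < β) (hU : 1 ≤ U)
    {k : ℤ} (hk : k ≤ D) : |Real.tan (Real.pi * (A * β ^ k))| ≤ U := by
  rcases le_total k 0 with hk0 | hk0
  · have h1 : β ^ k ≤ 1 := zpow_le_one_of_nonpos₀ hβ.le hk0
    have := (h.neg hβ hk0).2
    linarith
  · exact (h.hU k hk0 hk).2

lemma zpow_natAbs_neg (_hβ : 0 < β) {k : ℤ} (hk : k ≤ 0) : β ^ k = (β⁻¹) ^ k.natAbs := by
  rw [inv_pow, ← zpow_natCast, ← zpow_neg]
  congr 1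
  omega

/-- product of tangents at distance `m` -/
theorem St.prod_bound (h : St β α A B z D U ε) (hβ : 1 < β) (hα : ‖α‖ = 1) (hε : ε ≤ 1 / 8)
    (hU : 1 ≤ U) {m : ℕ} (hm : 2 * D ≤ m) (k : ℤ) :
    |Real.tan (Real.pi * (A * β ^ k)) * Real.tan (Real.pi * (A * β ^ (k - m)))| ≤
      1 / 2 * U * (β⁻¹) ^ (m - D) * ((β⁻¹) ^ (k - D).natAbs + (β⁻¹) ^ (k - m).natAbs +
        (β⁻¹) ^ (k - (m + D : ℕ)).natAbs + (if (D : ℤ) ≤ k ∧ k ≤ m then 1 else 0)) +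
      5 * ε * ((β⁻¹) ^ (k - m).natAbs + (β⁻¹) ^ (k - (m + D : ℕ)).natAbs +
        U * (if (m : ℤ) ≤ k ∧ k ≤ (m + D : ℕ) then 1 else 0)) +
      25 * ε ^ 2 * (if 0 ≤ k then 1 else 0) := by
  have hβ0 : 0 < β := by linarith
  have hε0 : 0 ≤ ε := (norm_nonneg z).trans h.hz
  have hU0 : 0 ≤ U := by linarith
  have hr0 : ∀ i : ℕ, 0 ≤ (β⁻¹) ^ i := fun i => by positivity
  have hr1 : ∀ i : ℕ, (β⁻¹) ^ i ≤ 1 := fun i =>
    pow_le_one₀ (by positivity) (inv_le_one_of_one_le₀ hβ.le)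
  have hq : (β⁻¹) ^ (m - D) = β ^ ((D : ℤ) - m) := by
    rw [inv_pow, ← zpow_natCast, ← zpow_neg]
    congr 1
    omega
  have hif0 : ∀ (p : Prop) [Decidable p], (0 : ℝ) ≤ (if p then 1 else 0) := by
    intro p _; split <;> norm_num
  set q := (β⁻¹) ^ (m - D) with hqdef
  have hq0 : 0 ≤ q := hr0 _
  set a1 := (β⁻¹) ^ (k - D).natAbs
  set a2 := (β⁻¹) ^ (k - m).natAbs
  set a3 := (β⁻¹) ^ (k - (m + D : ℕ)).natAbs
  have ha1 : 0 ≤ a1 := hr0 _
  have ha2 : 0 ≤ a2 := hr0 _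
  have ha3 : 0 ≤ a3 := hr0 _
  have i1 := hif0 ((D : ℤ) ≤ k ∧ k ≤ m)
  have i2 := hif0 ((m : ℤ) ≤ k ∧ k ≤ (m + D : ℕ))
  have i3 := hif0 (0 ≤ k)
  have hUq : 0 ≤ 1 / 2 * U * q := by positivity
  have t1 : 0 ≤ 1 / 2 * U * q * a1 := by positivity
  have t2 : 0 ≤ 1 / 2 * U * q * a2 := by positivity
  have t3 : 0 ≤ 1 / 2 * U * q * a3 := by positivity
  have s1 : 0 ≤ 5 * ε * a2 := by positivity
  have s2 : 0 ≤ 5 * ε * a3 := by positivity
  have t4 : 0 ≤ 1 / 2 * U * q * (if (D : ℤ) ≤ k ∧ k ≤ m then 1 else 0) := mul_nonneg hUq i1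
  have s3 : 0 ≤ 5 * ε * (U * (if (m : ℤ) ≤ k ∧ k ≤ (m + D : ℕ) then 1 else 0)) := by positivity
  have s4 : 0 ≤ 25 * ε ^ 2 * (if 0 ≤ k then 1 else 0) := by positivity
  rw [abs_mul]
  rcases le_or_gt k D with hk1 | hk1
  · -- k ≤ D
    have e1 := h.le_D hβ hU hk1
    have e2 := (h.neg hβ (k := k - m) (by push_cast at *; omega)).2
    have e3 : β ^ (k - m) = q * a1 := by
      show β ^ (k - m) = q * (β⁻¹) ^ (k - D).natAbs
      rw [hq, ← zpow_natAbs_neg hβ0 (by omega), ← zpow_add₀ hβ0.ne']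
      congr 1; ring
    have e2' := e2.trans_eq (congrArg (fun w => 1 / 2 * w) e3)
    have e4 := mul_le_mul e1 e2' (abs_nonneg _) hU0
    nlinarith
  · rcases le_or_gt k m with hk2 | hk2
    · -- D < k ≤ m
      have e1 := (h.pos hβ hα hε hk1.le).2
      have e2 := (h.neg hβ (k := k - m) (by omega)).2
      have e3 : β ^ (k - m) = a2 := zpow_natAbs_neg hβ0 (by omega)
      have e5 : β ^ ((D : ℤ) - k) * β ^ (k - m) = q := by
        rw [hq, ← zpow_add₀ hβ0.ne']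
        congr 1; ring
      have e6 : 0 < β ^ ((D : ℤ) - k) := zpow_pos hβ0 _
      have e7 : 0 < β ^ (k - m) := zpow_pos hβ0 _
      have e4 := mul_le_mul e1 e2 (abs_nonneg _) (by positivity)
      have e8 : (1 / 2 * β ^ ((D : ℤ) - k) + 5 * ε) * (1 / 2 * β ^ (k - m)) =
          1 / 4 * q + 5 / 2 * ε * a2 := by
        rw [← e5, ← e3]; ring
      rw [e8] at e4
      rw [if_pos (⟨hk1.le, hk2⟩ : (D : ℤ) ≤ k ∧ k ≤ m)] at t4 ⊢
      nlinarith
    · rcases le_or_gt k (m + D : ℕ) with hk3 | hk3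
      · -- m < k ≤ m + D
        have e1 := (h.pos hβ hα hε hk1.le).2
        have e2 := h.le_D hβ hU (k := k - m) (by push_cast at *; omega)
        have e3 : β ^ ((D : ℤ) - k) = q * a2 := by
          show β ^ ((D : ℤ) - k) = q * (β⁻¹) ^ (k - m).natAbs
          rw [hq, show (k - m).natAbs = ((m : ℤ) - k).natAbs by omega,
            ← zpow_natAbs_neg hβ0 (by omega), ← zpow_add₀ hβ0.ne']
          congr 1; ring
        rw [e3] at e1
        have e4 := mul_le_mul e1 e2 (abs_nonneg _) (by positivity)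
        rw [if_pos (⟨hk2.le, hk3⟩ : (m : ℤ) ≤ k ∧ k ≤ (m + D : ℕ))] at s3 ⊢
        nlinarith
      · -- k > m + D
        have e1 := (h.pos hβ hα hε hk1.le).2
        have e2 := (h.pos hβ hα hε (k := k - m) (by push_cast at *; omega)).2
        have e3 : β ^ ((D : ℤ) - (k - m)) = a3 := by
          show β ^ ((D : ℤ) - (k - m)) = (β⁻¹) ^ (k - (m + D : ℕ)).natAbs
          rw [show (k - (m + D : ℕ)).natAbs = ((D : ℤ) - (k - m)).natAbs by push_cast; omega,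
            ← zpow_natAbs_neg hβ0 (by push_cast at *; omega)]
        have e4 : β ^ ((D : ℤ) - k) = a3 * (β⁻¹) ^ m := by
          rw [← e3, inv_pow, ← zpow_natCast β m, ← zpow_neg, ← zpow_add₀ hβ0.ne']
          congr 1; ring
        have e5 : (β⁻¹) ^ m ≤ q := pow_le_pow_of_le_one (by positivity)
          (inv_le_one_of_one_le₀ hβ.le) (by omega)
        have e6 : (β⁻¹) ^ m ≤ 1 := hr1 m
        have e7 : a3 ≤ 1 := hr1 _
        rw [e3] at e2
        rw [e4] at e1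
        have e8 := mul_le_mul e1 e2 (abs_nonneg _) (by positivity)
        have e9 : a3 * (β⁻¹) ^ m ≤ a3 := mul_le_of_le_one_right ha3 e6
        have e10 : a3 * (β⁻¹) ^ m * a3 ≤ q * a3 := by
          have : a3 * (β⁻¹) ^ m ≤ q := by
            calc a3 * (β⁻¹) ^ m ≤ 1 * q := mul_le_mul e7 e5 (hr0 _) (by norm_num)
              _ = q := one_mul q
          exact mul_le_mul_of_nonneg_right this ha3
        rw [if_pos (by push_cast at *; omega : (0 : ℤ) ≤ k)] at s4 ⊢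
        nlinarith [mul_nonneg hε0 (sub_nonneg.mpr e9)]

end

end Crest.Agent.H8.BC
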