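import Mathlib
import Crest.Agent.H8.BC.State

set_option autoImplicit false

open MeasureTheory Filter Topology Set

namespace Crest.Agent.H8.BC

noncomputable section

lemma sum_pow_injOn {r : ℝ} (hr0 : 0 ≤ r) (hr1 : r < 1) (S : Finset ℕ) (g : ℕ → ℕ)
    (hg : Set.InjOn g S) : ∑ j ∈ S, r ^ g j ≤ (1 - r)⁻¹ := by
  have h1 : ∑ j ∈ S, r ^ g j = ∑ i ∈ S.image g, r ^ i :=
    (Finset.sum_image (f := fun i => r ^ i) hg).symm
  rw [h1, ← tsum_geometric_of_lt_one hr0 hr1]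
  exact Summable.sum_le_tsum _ (fun i _ => by positivity) (summable_geometric_of_lt_one hr0 hr1)

lemma sum_geo {r : ℝ} (hr0 : 0 ≤ r) (hr1 : r < 1) (n a : ℤ) (N : ℕ) :
    ∑ j ∈ Finset.range N, r ^ (n - j - a).natAbs ≤ 2 * (1 - r)⁻¹ := by
  rw [← Finset.sum_filter_add_sum_filter_not (Finset.range N) (fun j : ℕ => (j : ℤ) ≤ n - a)]
  have h1 := sum_pow_injOn hr0 hr1
    ((Finset.range N).filter (fun j : ℕ => (j : ℤ) ≤ n - a)) (fun j => (n - j - a).natAbs) (by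
      intro x hx y hy hxy
      simp only [Finset.coe_filter, Set.mem_ofPred_eq] at hx hy
      simp only at hxy
      omega)
  have h2 := sum_pow_injOn hr0 hr1
    ((Finset.range N).filter (fun j : ℕ => ¬ (j : ℤ) ≤ n - a)) (fun j => (n - j - a).natAbs) (by
      intro x hx y hy hxy
      simp only [Finset.coe_filter, Set.mem_ofPred_eq] at hx hy
      simp only at hxy
      omega)
  linarith

lemma sum_ind (n a b : ℤ) (hab : a ≤ b + 1) (N : ℕ) :
    ∑ j ∈ Finset.range N, (if a ≤ n - j ∧ n - j ≤ b then (1 : ℝ) else 0) ≤ b + 1 - a := by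
  rw [← Finset.sum_filter, Finset.sum_const, nsmul_eq_mul, mul_one]
  have h1 : ((Finset.range N).filter (fun j : ℕ => a ≤ n - j ∧ n - j ≤ b)).card ≤
      (Finset.Icc a b).card := by
    apply Finset.card_le_card_of_injOn (fun j : ℕ => n - (j : ℤ))
    · intro j hj
      simp only [Finset.coe_filter, Set.mem_ofPred_eq] at hj
      simp only [Finset.coe_Icc, Set.mem_Icc]
      exact hj.2
    · intro x _ y _ hxy
      simp only at hxy
      omega
  rw [Int.card_Icc] at h1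
  have h2 : (((Finset.range N).filter (fun j : ℕ => a ≤ n - j ∧ n - j ≤ b)).card : ℤ) ≤
      b + 1 - a := by
    have := Int.toNat_of_nonneg (show 0 ≤ b + 1 - a by linarith)
    omega
  exact_mod_cast h2

variable {β : ℝ} {α : ℂ} {A B : ℝ} {z : ℂ} {D : ℕ} {U ε : ℝ}

/-- the error functional -/
def EB (β : ℝ) (D : ℕ) (U ε : ℝ) (m n : ℕ) : ℝ :=
  1 / 2 * U * (β⁻¹) ^ (m - D) * (16 + m) + 5 * ε * (10 + U * (D + 1)) + 25 * ε ^ 2 * (n + 1)

theorem St.sum_bound (h : St β α A B z D U ε) (hβ : 5 / 3 ≤ β) (hα : ‖α‖ = 1)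
    (hε : ε ≤ 1 / 8) (hU : 1 ≤ U) {m : ℕ} (hm : 2 * D ≤ m) (n N : ℕ) :
    ∑ j ∈ Finset.range N, |Real.tan (Real.pi * (A * β ^ ((n : ℤ) - j))) *
      Real.tan (Real.pi * (A * β ^ ((n : ℤ) - j - m)))| ≤ EB β D U ε m n := by
  have hβ1 : 1 < β := by linarith
  have hβ0 : 0 < β := by linarith
  have hε0 : 0 ≤ ε := (norm_nonneg z).trans h.hz
  have hr0 : 0 ≤ β⁻¹ := by positivity
  have hr1 : β⁻¹ ≤ 3 / 5 := by
    rw [inv_le_comm₀ hβ0 (by norm_num)]; linarith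
  have hG : 2 * (1 - β⁻¹)⁻¹ ≤ 5 := by
    have : (1 - β⁻¹)⁻¹ ≤ (2 / 5)⁻¹ := inv_anti₀ (by norm_num) (by linarith)
    linarith
  have hg : ∀ a : ℤ, ∑ j ∈ Finset.range N, (β⁻¹) ^ ((n : ℤ) - j - a).natAbs ≤ 5 :=
    fun a => (sum_geo hr0 (by linarith) n a N).trans hG
  have h1 := Finset.sum_le_sum (fun (j : ℕ) (_ : j ∈ Finset.range N) =>
    h.prod_bound hβ1 hα hε hU hm ((n : ℤ) - j))
  refine h1.trans ?_
  have i1 := sum_ind n D m (by push_cast; omega) N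
  have i2 := sum_ind n m (m + D : ℕ) (by push_cast; omega) N
  have i3 : ∑ j ∈ Finset.range N, (if 0 ≤ (n : ℤ) - j then (1 : ℝ) else 0) ≤ n + 1 := by
    have := sum_ind n 0 n (by omega) N
    calc _ = ∑ j ∈ Finset.range N, (if 0 ≤ (n : ℤ) - j ∧ (n : ℤ) - j ≤ n then (1 : ℝ) else 0) := by
            apply Finset.sum_congr rfl
            intro j _
            congr 1
            simp
      _ ≤ _ := by push_cast at this; linarith
  rw [Finset.sum_add_distrib, Finset.sum_add_distrib]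
  rw [← Finset.mul_sum, ← Finset.mul_sum, ← Finset.mul_sum]
  rw [Finset.sum_add_distrib, Finset.sum_add_distrib, Finset.sum_add_distrib,
    Finset.sum_add_distrib, Finset.sum_add_distrib, ← Finset.mul_sum]
  have g1 := hg D
  have g2 := hg m
  have g3 := hg (m + D : ℕ)
  have hU0 : 0 ≤ U := by linarith
  have hUq : 0 ≤ 1 / 2 * U * (β⁻¹) ^ (m - D) := by positivity
  have hD0 : (0 : ℝ) ≤ D := Nat.cast_nonneg D
  unfold EB
  apply add_le_add
  · apply add_le_add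
    · apply mul_le_mul_of_nonneg_left _ hUq
      simp only [Int.cast_natCast] at i1
      linarith
    · apply mul_le_mul_of_nonneg_left _ (by positivity)
      simp only [Int.cast_natCast] at i2
      have := mul_le_mul_of_nonneg_left i2 hU0
      have e : U * (((m + D : ℕ) : ℝ) + 1 - m) = U * (D + 1) := by push_cast; ring
      rw [e] at this
      linarith
  · apply mul_le_mul_of_nonneg_left i3 (by positivity)

/-- pointwise bound -/
theorem St.prod_small (h : St β α A B z D U ε) (hβ : 5 / 3 ≤ β) (hα : ‖α‖ = 1)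
    (hε : ε ≤ 1 / 1000) (hU : 1 ≤ U) (hU5 : U ≤ 5) (hD : (β⁻¹) ^ D ≤ ε)
    {m : ℕ} (hm : 2 * D ≤ m) (k : ℤ) :
    |Real.tan (Real.pi * (A * β ^ k)) * Real.tan (Real.pi * (A * β ^ (k - m)))| ≤ 46 * ε := by
  have hβ1 : 1 < β := by linarith
  have hβ0 : 0 < β := by linarith
  have hε0 : 0 ≤ ε := (norm_nonneg z).trans h.hz
  have hr0 : ∀ i : ℕ, 0 ≤ (β⁻¹) ^ i := fun i => by positivity
  have hr1 : ∀ i : ℕ, (β⁻¹) ^ i ≤ 1 := fun i =>
    pow_le_one₀ (by positivity) (inv_le_one_of_one_le₀ hβ1.le)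
  have hif0 : ∀ (p : Prop) [Decidable p], (0 : ℝ) ≤ (if p then 1 else 0) := by
    intro p _; split <;> norm_num
  have hif1 : ∀ (p : Prop) [Decidable p], (if p then 1 else 0 : ℝ) ≤ 1 := by
    intro p _; split <;> norm_num
  refine (h.prod_bound hβ1 hα (by linarith) hU hm k).trans ?_
  have hq : (β⁻¹) ^ (m - D) ≤ ε := by
    refine le_trans ?_ hD
    exact pow_le_pow_of_le_one (by positivity) (inv_le_one_of_one_le₀ hβ1.le) (by omega)
  have b1 := hr1 (k - D).natAbs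
  have b2 := hr1 (k - m).natAbs
  have b3 := hr1 (k - (m + D : ℕ)).natAbs
  have c1 := hif1 ((D : ℤ) ≤ k ∧ k ≤ m)
  have c2 := hif1 ((m : ℤ) ≤ k ∧ k ≤ (m + D : ℕ))
  have c3 := hif1 (0 ≤ k)
  have c2' := hif0 ((m : ℤ) ≤ k ∧ k ≤ (m + D : ℕ))
  have p1 : 1 / 2 * U * (β⁻¹) ^ (m - D) ≤ 5 / 2 * ε := by
    have := mul_le_mul hU5 hq (hr0 _) (by norm_num)
    nlinarith
  have p1' : 0 ≤ 1 / 2 * U * (β⁻¹) ^ (m - D) := by
    have := hr0 (m - D)
    positivity
  have p2 : 1 / 2 * U * (β⁻¹) ^ (m - D) * ((β⁻¹) ^ (k - D).natAbs + (β⁻¹) ^ (k - m).natAbs +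
        (β⁻¹) ^ (k - (m + D : ℕ)).natAbs + (if (D : ℤ) ≤ k ∧ k ≤ m then 1 else 0)) ≤
        5 / 2 * ε * 4 := by
    apply mul_le_mul p1 (by linarith) _ (by positivity)
    have := hr0 (k - D).natAbs
    have := hr0 (k - m).natAbs
    have := hr0 (k - (m + D : ℕ)).natAbs
    have := hif0 ((D : ℤ) ≤ k ∧ k ≤ m)
    positivity
  have p3 : 5 * ε * ((β⁻¹) ^ (k - m).natAbs + (β⁻¹) ^ (k - (m + D : ℕ)).natAbs +
        U * (if (m : ℤ) ≤ k ∧ k ≤ (m + D : ℕ) then 1 else 0)) ≤ 5 * ε * 7 := by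
    apply mul_le_mul_of_nonneg_left _ (by positivity)
    nlinarith
  have p4 : 25 * ε ^ 2 * (if 0 ≤ k then 1 else 0) ≤ ε := by
    have : 25 * ε ^ 2 * (if 0 ≤ k then 1 else 0) ≤ 25 * ε ^ 2 * 1 :=
      mul_le_mul_of_nonneg_left c3 (by positivity)
    nlinarith
  linarith

end

end Crest.Agent.H8.BC
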