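import Mathlib
import Crest.Agent.H8.BC.Sums
import Crest.Agent.H8.BC.CosT

set_option autoImplicit false

open MeasureTheory Filter Topology Set

namespace Crest.Agent.H8.BC

noncomputable section

variable {c : ℝ}

lemma Phi_step (hc0 : 0 < c) (hc1 : c < 1) (t : ℝ) :
    Phi c t = Real.cos t * Phi c (c * t) := by
  have h1 := (tendsto_add_atTop_iff_nat 1).mpr (tendsto_prod_cos hc0 hc1 t)
  have h2 := (tendsto_prod_cos hc0 hc1 (c * t)).const_mul (Real.cos t)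
  have h3 : ∀ N, ∏ n ∈ Finset.range (N + 1), Real.cos (c ^ n * t) =
      Real.cos t * ∏ n ∈ Finset.range N, Real.cos (c ^ n * (c * t)) := by
    intro N
    rw [Finset.prod_range_succ', mul_comm]
    congr 1
    · simp
    · apply Finset.prod_congr rfl
      intro n _
      congr 1
      ring
  simp_rw [h3] at h1
  exact tendsto_nhds_unique h1 h2

lemma one_sub_ge_exp {x : ℝ} (hx0 : 0 ≤ x) (hx : x ≤ 1 / 2) : Real.exp (-(2 * x)) ≤ 1 - x := by
  have h1 := Real.quadratic_le_exp_of_nonneg (x := 2 * x) (by linarith)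
  have h2 : 0 < Real.exp (2 * x) := Real.exp_pos _
  rw [Real.exp_neg, inv_le_comm₀ h2 (by linarith), inv_eq_one_div, div_le_iff₀ (by linarith)]
  have h3 : 1 ≤ (1 + 2 * x + (2 * x) ^ 2 / 2) * (1 - x) := by
    nlinarith [mul_nonneg hx0 (sub_nonneg.mpr hx), mul_nonneg (mul_nonneg hx0 hx0) (sub_nonneg.mpr hx)]
  nlinarith

lemma cos_sub_eq {a b : ℝ} (ha : Real.cos a ≠ 0) (hb : Real.cos b ≠ 0) :
    Real.cos (a - b) = Real.cos a * Real.cos b * (1 + Real.tan a * Real.tan b) := by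
  rw [Real.cos_sub, Real.tan_eq_sin_div_cos, Real.tan_eq_sin_div_cos]
  field_simp

lemma cos_add_eq {a b : ℝ} (ha : Real.cos a ≠ 0) (hb : Real.cos b ≠ 0) :
    Real.cos (a + b) = Real.cos a * Real.cos b * (1 + -(Real.tan a * Real.tan b)) := by
  rw [Real.cos_add, Real.tan_eq_sin_div_cos, Real.tan_eq_sin_div_cos]
  field_simp
  ring

theorem ratio_aux (hc0 : 0 < c) (hc1 : c < 1) {s t t' : ℝ} (e : ℕ → ℝ)
    (hprod : ∀ j : ℕ, Real.cos (c ^ j * s) =
      Real.cos (c ^ j * t) * Real.cos (c ^ j * t') * (1 + e j))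
    {E : ℝ} (hE : ∀ N, ∑ j ∈ Finset.range N, |e j| ≤ E) :
    |Phi c s - Phi c t * Phi c t'| ≤ (Real.exp E - 1) * |Phi c t * Phi c t'| ∧
    ((∀ j, |e j| ≤ 1 / 2) → Real.exp (-(2 * E)) * |Phi c t * Phi c t'| ≤ |Phi c s|) := by
  have hs := tendsto_prod_cos hc0 hc1 s
  have ht := (tendsto_prod_cos hc0 hc1 t).mul (tendsto_prod_cos hc0 hc1 t')
  have hid : ∀ N, ∏ n ∈ Finset.range N, Real.cos (c ^ n * s) =
      (∏ n ∈ Finset.range N, Real.cos (c ^ n * t)) * (∏ n ∈ Finset.range N, Real.cos (c ^ n * t'))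
        * ∏ n ∈ Finset.range N, (1 + e n) := by
    intro N
    rw [← Finset.prod_mul_distrib, ← Finset.prod_mul_distrib]
    exact Finset.prod_congr rfl fun n _ => hprod n
  constructor
  · have h1 : ∀ N, |∏ n ∈ Finset.range N, Real.cos (c ^ n * s) -
        (∏ n ∈ Finset.range N, Real.cos (c ^ n * t)) *
          (∏ n ∈ Finset.range N, Real.cos (c ^ n * t'))| ≤ (Real.exp E - 1) *
          |(∏ n ∈ Finset.range N, Real.cos (c ^ n * t)) *
          (∏ n ∈ Finset.range N, Real.cos (c ^ n * t'))| := by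
      intro N
      rw [hid N]
      set p := (∏ n ∈ Finset.range N, Real.cos (c ^ n * t)) *
          (∏ n ∈ Finset.range N, Real.cos (c ^ n * t'))
      have h2 : p * ∏ n ∈ Finset.range N, (1 + e n) - p =
          (∏ n ∈ Finset.range N, (1 + e n) - 1) * p := by ring
      rw [h2, abs_mul]
      apply mul_le_mul_of_nonneg_right _ (abs_nonneg p)
      have h3 := Finset.norm_prod_one_add_sub_one_le (Finset.range N) e
      simp only [Real.norm_eq_abs] at h3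
      have h4 := Real.exp_le_exp.mpr (hE N)
      linarith
    exact le_of_tendsto_of_tendsto' (hs.sub ht).abs (ht.abs.const_mul _) h1
  · intro hhalf
    have h1 : ∀ N, Real.exp (-(2 * E)) * |(∏ n ∈ Finset.range N, Real.cos (c ^ n * t)) *
          (∏ n ∈ Finset.range N, Real.cos (c ^ n * t'))| ≤
          |∏ n ∈ Finset.range N, Real.cos (c ^ n * s)| := by
      intro N
      rw [hid N, abs_mul _ (∏ n ∈ Finset.range N, (1 + e n)), mul_comm]
      apply mul_le_mul_of_nonneg_left _ (abs_nonneg _)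
      rw [Finset.abs_prod]
      have h2 : Real.exp (-(2 * E)) ≤ ∏ n ∈ Finset.range N, Real.exp (-(2 * |e n|)) := by
        rw [← Real.exp_sum, Real.exp_le_exp, Finset.sum_neg_distrib, ← Finset.mul_sum]
        have := hE N
        linarith
      refine h2.trans ?_
      apply Finset.prod_le_prod
      · intro n _; exact (Real.exp_pos _).le
      · intro n _
        have h3 := one_sub_ge_exp (abs_nonneg (e n)) (hhalf n)
        have h4 : 1 - |e n| ≤ |1 + e n| := by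
          have h5 := abs_sub_abs_le_abs_sub (1 : ℝ) (-(e n))
          rw [abs_one, abs_neg, sub_neg_eq_add] at h5
          exact h5
        exact h3.trans h4
    exact le_of_tendsto_of_tendsto' (ht.abs.const_mul _) hs.abs h1

theorem ratio_sub (hc0 : 0 < c) (hc1 : c < 1) {t t' : ℝ}
    (h1 : ∀ j : ℕ, Real.cos (c ^ j * t) ≠ 0) (h2 : ∀ j : ℕ, Real.cos (c ^ j * t') ≠ 0)
    {E : ℝ} (hE : ∀ N, ∑ j ∈ Finset.range N, |Real.tan (c ^ j * t) * Real.tan (c ^ j * t')| ≤ E) :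
    |Phi c (t - t') - Phi c t * Phi c t'| ≤ (Real.exp E - 1) * |Phi c t * Phi c t'| ∧
    ((∀ j, |Real.tan (c ^ j * t) * Real.tan (c ^ j * t')| ≤ 1 / 2) →
      Real.exp (-(2 * E)) * |Phi c t * Phi c t'| ≤ |Phi c (t - t')|) :=
  ratio_aux hc0 hc1 (fun j => Real.tan (c ^ j * t) * Real.tan (c ^ j * t'))
    (fun j => by rw [mul_sub, cos_sub_eq (h1 j) (h2 j)]) hE

theorem ratio_add (hc0 : 0 < c) (hc1 : c < 1) {t t' : ℝ}
    (h1 : ∀ j : ℕ, Real.cos (c ^ j * t) ≠ 0) (h2 : ∀ j : ℕ, Real.cos (c ^ j * t') ≠ 0)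
    {E : ℝ} (hE : ∀ N, ∑ j ∈ Finset.range N, |Real.tan (c ^ j * t) * Real.tan (c ^ j * t')| ≤ E) :
    |Phi c (t + t') - Phi c t * Phi c t'| ≤ (Real.exp E - 1) * |Phi c t * Phi c t'| :=
  (ratio_aux hc0 hc1 (fun j => -(Real.tan (c ^ j * t) * Real.tan (c ^ j * t')))
    (fun j => by rw [mul_add, cos_add_eq (h1 j) (h2 j)]) (by simpa using hE)).1

variable {β : ℝ} {α : ℂ} {A B : ℝ} {z : ℂ} {D : ℕ} {U ε : ℝ}

/-- frequencies -/
def T (A β : ℝ) (n : ℕ) : ℝ := Real.pi * (A * β ^ (n : ℤ))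

lemma pow_mul_T (hβ : 0 < β) (n j : ℕ) :
    (β⁻¹) ^ j * T A β n = Real.pi * (A * β ^ ((n : ℤ) - j)) := by
  unfold T
  rw [zpow_sub₀ hβ.ne', inv_pow, zpow_natCast β j]
  ring

theorem St.ratio (h : St β α A B z D U ε) (hβ : 5 / 3 ≤ β) (hα : ‖α‖ = 1)
    (hε : ε ≤ 1 / 1000) (hU : 1 ≤ U) (hU5 : U ≤ 5) (hD : (β⁻¹) ^ D ≤ ε)
    {m : ℕ} (hm : 2 * D ≤ m) (n : ℕ) :
    |Phi β⁻¹ (T A β (n + m) - T A β n) - Phi β⁻¹ (T A β (n + m)) * Phi β⁻¹ (T A β n)| ≤
      (Real.exp (EB β D U ε m (n + m)) - 1) *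
        |Phi β⁻¹ (T A β (n + m)) * Phi β⁻¹ (T A β n)| ∧
    |Phi β⁻¹ (T A β (n + m) + T A β n) - Phi β⁻¹ (T A β (n + m)) * Phi β⁻¹ (T A β n)| ≤
      (Real.exp (EB β D U ε m (n + m)) - 1) *
        |Phi β⁻¹ (T A β (n + m)) * Phi β⁻¹ (T A β n)| ∧
    Real.exp (-(2 * EB β D U ε m (n + m))) *
        |Phi β⁻¹ (T A β (n + m)) * Phi β⁻¹ (T A β n)| ≤
      |Phi β⁻¹ (T A β (n + m) - T A β n)| := by
  have hβ1 : 1 < β := by linarith
  have hβ0 : 0 < β := by linarith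
  have hc0 : 0 < β⁻¹ := by positivity
  have hc1 : β⁻¹ < 1 := inv_lt_one_of_one_lt₀ hβ1
  have hε8 : ε ≤ 1 / 8 := by linarith
  have e1 : ∀ j : ℕ, (β⁻¹) ^ j * T A β (n + m) = Real.pi * (A * β ^ (((n + m : ℕ) : ℤ) - j)) :=
    fun j => pow_mul_T hβ0 _ _
  have e2 : ∀ j : ℕ, (β⁻¹) ^ j * T A β n = Real.pi * (A * β ^ (((n + m : ℕ) : ℤ) - j - m)) := by
    intro j
    rw [pow_mul_T hβ0]
    congr 3
    push_cast; ring
  have h1 : ∀ j : ℕ, Real.cos ((β⁻¹) ^ j * T A β (n + m)) ≠ 0 := fun j => by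
    rw [e1]; exact h.ne hβ1 hα hε8 _
  have h2 : ∀ j : ℕ, Real.cos ((β⁻¹) ^ j * T A β n) ≠ 0 := fun j => by
    rw [e2]; exact h.ne hβ1 hα hε8 _
  have hE : ∀ N, ∑ j ∈ Finset.range N, |Real.tan ((β⁻¹) ^ j * T A β (n + m)) *
      Real.tan ((β⁻¹) ^ j * T A β n)| ≤ EB β D U ε m (n + m) := by
    intro N
    simp_rw [e1, e2]
    exact h.sum_bound hβ hα hε8 hU hm (n + m) N
  have hhalf : ∀ j : ℕ, |Real.tan ((β⁻¹) ^ j * T A β (n + m)) *
      Real.tan ((β⁻¹) ^ j * T A β n)| ≤ 1 / 2 := by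
    intro j
    rw [e1, e2]
    refine (h.prod_small hβ hα hε hU hU5 hD hm _).trans ?_
    linarith
  have hs := ratio_sub hc0 hc1 h1 h2 hE
  exact ⟨hs.1, ratio_add hc0 hc1 h1 h2 hE, hs.2 hhalf⟩

lemma abs_cos_ge {y : ℝ} (hy : Real.cos y ≠ 0) :
    Real.exp (-(Real.tan y ^ 2 / 2)) ≤ |Real.cos y| := by
  have h1 : Real.cos y ^ 2 = (1 + Real.tan y ^ 2)⁻¹ := (Real.inv_one_add_tan_sq hy).symm
  have h2 : Real.exp (-(Real.tan y ^ 2)) ≤ Real.cos y ^ 2 := by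
    rw [h1, Real.exp_neg]
    apply inv_anti₀ (by positivity)
    have := Real.add_one_le_exp (Real.tan y ^ 2)
    linarith
  have h3 : Real.exp (-(Real.tan y ^ 2)) = Real.exp (-(Real.tan y ^ 2 / 2)) ^ 2 := by
    rw [← Real.exp_nat_mul]
    congr 1
    push_cast; ring
  rw [h3, ← sq_abs (Real.cos y)] at h2
  exact (pow_le_pow_iff_left₀ (Real.exp_pos _).le (abs_nonneg _) two_ne_zero).mp h2

theorem St.lower (h : St β α A B z D U ε) (hβ : 5 / 3 ≤ β) (hα : ‖α‖ = 1)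
    (hε : ε ≤ 1 / 8) (l : ℕ) :
    |Phi β⁻¹ (T A β D)| * Real.exp (-(1 + 25 * ε ^ 2 * l)) ≤ |Phi β⁻¹ (T A β (D + l))| := by
  have hβ1 : 1 < β := by linarith
  have hβ0 : 0 < β := by linarith
  have hc0 : 0 < β⁻¹ := by positivity
  have hc1 : β⁻¹ < 1 := inv_lt_one_of_one_lt₀ hβ1
  have hε0 : 0 ≤ ε := (norm_nonneg z).trans h.hz
  have hr1 : β⁻¹ ≤ 3 / 5 := by
    rw [inv_le_comm₀ hβ0 (by norm_num)]; linarith
  have key : ∀ l : ℕ, |Phi β⁻¹ (T A β D)| *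
      Real.exp (-(∑ i ∈ Finset.range l, (1 / 4 * (β⁻¹) ^ (i + 1) + 25 * ε ^ 2))) ≤
      |Phi β⁻¹ (T A β (D + l))| := by
    intro l
    induction l with
    | zero => simp
    | succ l ih =>
      rw [Finset.sum_range_succ, neg_add, Real.exp_add, ← mul_assoc,
        Phi_step hc0 hc1 (T A β (D + (l + 1))), abs_mul, mul_comm |Real.cos _|]
      have e1 : β⁻¹ * T A β (D + (l + 1)) = T A β (D + l) := by
        have := pow_mul_T (A := A) hβ0 (D + (l + 1)) 1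
        rw [pow_one] at this
        rw [this]
        unfold T
        congr 3
        push_cast; ring
      rw [e1]
      apply mul_le_mul ih _ (Real.exp_pos _).le (abs_nonneg _)
      have hk := h.pos hβ1 hα hε (k := ((D + (l + 1) : ℕ) : ℤ)) (by push_cast; omega)
      have e2 := abs_cos_ge hk.1
      refine le_trans ?_ e2
      rw [Real.exp_le_exp, neg_le_neg_iff]
      have e3 : β ^ ((D : ℤ) - ((D + (l + 1) : ℕ) : ℤ)) = (β⁻¹) ^ (l + 1) := by
        rw [zpow_natAbs_neg hβ0 (by push_cast; omega)]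
        congr 1
        omega
      rw [e3] at hk
      have e4 := hk.2
      have e5 : 0 ≤ (β⁻¹) ^ (l + 1) := by positivity
      have e6 : (β⁻¹) ^ (l + 1) ≤ 1 := pow_le_one₀ hc0.le hc1.le
      set r := (β⁻¹) ^ (l + 1)
      set u := Real.tan (Real.pi * (A * β ^ ((D + (l + 1) : ℕ) : ℤ)))
      have e7 : u ^ 2 ≤ (1 / 2 * r + 5 * ε) ^ 2 := by
        rw [← sq_abs u]
        exact pow_le_pow_left₀ (abs_nonneg _) e4 2
      nlinarith [sq_nonneg (1 / 2 * r - 5 * ε), mul_nonneg e5 (sub_nonneg.mpr e6)]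
  refine le_trans ?_ (key l)
  apply mul_le_mul_of_nonneg_left _ (abs_nonneg _)
  rw [Real.exp_le_exp, neg_le_neg_iff, Finset.sum_add_distrib, ← Finset.mul_sum]
  have h1 := sum_pow_injOn hc0.le hc1 (Finset.range l) (fun i => i + 1) (by
    intro x _ y _ hxy
    simpa using hxy)
  have h2 : (1 - β⁻¹)⁻¹ ≤ (2 / 5)⁻¹ := inv_anti₀ (by norm_num) (by linarith)
  simp only [Finset.sum_const, Finset.card_range, nsmul_eq_mul]
  linarith

/-- positivity of the transform at the base frequency -/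
theorem St.base_pos (h : St β α A B z D U ε) (hβ : 5 / 3 ≤ β) (hα : ‖α‖ = 1)
    (hε : ε ≤ 1 / 8) (hU : 1 ≤ U) :
    Real.exp (-((U ^ 2 * (D + 1) + 5) / 2)) ≤ |Phi β⁻¹ (T A β D)| := by
  have hβ1 : 1 < β := by linarith
  have hβ0 : 0 < β := by linarith
  have hc0 : 0 < β⁻¹ := by positivity
  have hc1 : β⁻¹ < 1 := inv_lt_one_of_one_lt₀ hβ1
  have hr1 : β⁻¹ ≤ 3 / 5 := by
    rw [inv_le_comm₀ hβ0 (by norm_num)]; linarith
  have hlim := (tendsto_prod_cos hc0 hc1 (T A β D)).abs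
  apply ge_of_tendsto' hlim
  intro N
  rw [Finset.abs_prod]
  have h1 : ∀ j ∈ Finset.range N, Real.exp (-((U ^ 2 *
      (if (0 : ℤ) ≤ (D : ℤ) - j ∧ (D : ℤ) - j ≤ D then 1 else 0) +
        (β⁻¹) ^ ((D : ℤ) - j - 0).natAbs) / 2)) ≤ |Real.cos ((β⁻¹) ^ j * T A β D)| := by
    intro j _
    rw [pow_mul_T hβ0]
    refine le_trans ?_ (abs_cos_ge (h.ne hβ1 hα hε _))
    rw [Real.exp_le_exp, neg_le_neg_iff]
    have h0 : 0 ≤ (β⁻¹) ^ ((D : ℤ) - j - 0).natAbs := by positivity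
    rcases le_or_gt (0 : ℤ) ((D : ℤ) - j) with hj | hj
    · have h2 := h.le_D hβ1 hU (k := (D : ℤ) - j) (by omega)
      rw [if_pos (⟨hj, by omega⟩ : (0 : ℤ) ≤ (D : ℤ) - j ∧ (D : ℤ) - j ≤ D)]
      have h3 := pow_le_pow_left₀ (abs_nonneg _) h2 2
      rw [sq_abs] at h3
      linarith
    · have h2 := (h.neg hβ1 hj.le).2
      have h3 : β ^ ((D : ℤ) - j) = (β⁻¹) ^ ((D : ℤ) - j - 0).natAbs := by
        rw [sub_zero]; exact zpow_natAbs_neg hβ0 hj.le
      have h2' := h2.trans_eq (congrArg (fun w => 1 / 2 * w) h3)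
      have h4 := pow_le_pow_left₀ (abs_nonneg _) h2' 2
      rw [sq_abs] at h4
      have h5 : (β⁻¹) ^ ((D : ℤ) - j - 0).natAbs ≤ 1 := pow_le_one₀ hc0.le hc1.le
      have h6 : 0 ≤ U ^ 2 * (if (0 : ℤ) ≤ (D : ℤ) - j ∧ (D : ℤ) - j ≤ D then (1 : ℝ) else 0) := by
        split <;> positivity
      set r := (β⁻¹) ^ ((D : ℤ) - j - 0).natAbs
      nlinarith
  refine le_trans ?_ (Finset.prod_le_prod (fun j _ => (Real.exp_pos _).le) h1)
  rw [← Real.exp_sum, Real.exp_le_exp, Finset.sum_neg_distrib, neg_le_neg_iff,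
    ← Finset.sum_div]
  apply div_le_div_of_nonneg_right _ (by norm_num)
  rw [Finset.sum_add_distrib, ← Finset.mul_sum]
  have i1 := sum_ind D 0 D (by omega) N
  have i2 := sum_geo hc0.le hc1 D 0 N
  have hG : 2 * (1 - β⁻¹)⁻¹ ≤ 5 := by
    have : (1 - β⁻¹)⁻¹ ≤ (2 / 5)⁻¹ := inv_anti₀ (by norm_num) (by linarith)
    linarith
  simp only [Int.cast_natCast, Int.cast_zero, sub_zero] at i1
  have i3 := mul_le_mul_of_nonneg_left i1 (sq_nonneg U)
  linarith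

end

end Crest.Agent.H8.BC
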