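import Mathlib
import Crest.Agent.H8.BC.PhiRel

set_option autoImplicit false

open MeasureTheory Filter Topology Set

namespace Crest.Agent.H8.BC

noncomputable section

variable {β : ℝ} {α : ℂ} {A B : ℝ} {z : ℂ} {D : ℕ} {U ε : ℝ}

lemma tan_sub_eq {a b : ℝ} (ha : Real.cos a ≠ 0) (hb : Real.cos b ≠ 0) :
    Real.tan (a - b) = (Real.tan a - Real.tan b) / (1 + Real.tan a * Real.tan b) := by
  rw [Real.tan_eq_sin_div_cos (a - b), cos_sub_eq ha hb, Real.sin_sub]
  have h1 : Real.sin a * Real.cos b - Real.cos a * Real.sin b =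
      Real.cos a * Real.cos b * (Real.tan a - Real.tan b) := by
    rw [Real.tan_eq_sin_div_cos, Real.tan_eq_sin_div_cos]
    field_simp
  rw [h1, mul_div_mul_left _ _ (mul_ne_zero ha hb)]

lemma norm_one_sub_zpow_neg (hα : ‖α‖ = 1) (m : ℕ) :
    ‖1 - α ^ (-(m : ℤ))‖ = ‖1 - α ^ m‖ := by
  have hα0 : α ≠ 0 := by
    intro h; rw [h, norm_zero] at hα; norm_num at hα
  have h1 : 1 - α ^ (-(m : ℤ)) = -(α ^ (-(m : ℤ))) * (1 - α ^ m) := by
    rw [zpow_neg, zpow_natCast]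
    field_simp
    ring
  rw [h1, norm_mul, norm_neg, norm_zpow, hα, one_zpow, one_mul]

theorem St.shift (h : St β α A B z D U ε) (hβ : 5 / 3 ≤ β) (hα : ‖α‖ = 1)
    (hε : ε ≤ 1 / 1000) (hU : 1 ≤ U) (hU5 : U ≤ 5) (hD : (β⁻¹) ^ D ≤ ε) (hD2 : 1 ≤ D)
    {m : ℕ} (hm : 2 * D ≤ m) {ε' : ℝ} (hε' : ε * ‖1 - α ^ m‖ ≤ ε') :
    St β α (A * (1 - β ^ (-(m : ℤ)))) (B * (1 - β ^ m)) (z * (1 - α ^ (-(m : ℤ)))) (D + m)
      (U + 251 * ε) ε' := by
  have hβ1 : 1 < β := by linarith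
  have hβ0 : 0 < β := by linarith
  have hβne : β ≠ 0 := hβ0.ne'
  have hα0 : α ≠ 0 := by
    intro h; rw [h, norm_zero] at hα; norm_num at hα
  have hε0 : 0 ≤ ε := (norm_nonneg z).trans h.hz
  have hc0 : 0 < β⁻¹ := by positivity
  have hβm : 1 ≤ β ^ m := one_le_pow₀ hβ1.le
  have hβm2 : 2 ≤ β ^ m := by
    have h1 : β ^ 2 ≤ β ^ m := pow_le_pow_right₀ hβ1.le (by omega)
    nlinarith
  have hβn : 0 < β ^ (-(m : ℤ)) := zpow_pos hβ0 _
  have hβn1 : β ^ (-(m : ℤ)) ≤ 1 := zpow_le_one_of_nonpos₀ hβ1.le (by omega)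
  have hmul : β ^ (-(m : ℤ)) * β ^ m = 1 := by
    rw [zpow_neg, zpow_natCast, inv_mul_cancel₀ (by positivity)]
  have hdiff : ∀ k : ℤ, A * (1 - β ^ (-(m : ℤ))) * β ^ k = A * β ^ k - A * β ^ (k - m) := by
    intro k
    rw [zpow_sub₀ hβne, zpow_neg, zpow_natCast]
    ring
  refine ⟨?_, ?_, ?_, ?_, ?_, ?_⟩
  · intro k
    obtain ⟨n1, h1⟩ := h.int k
    obtain ⟨n2, h2⟩ := h.int (k - m)
    refine ⟨n1 - n2, ?_⟩
    have e1 : B * (1 - β ^ m) * β ^ (-k) = B * β ^ (-k) - B * β ^ (-(k - m)) := by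
      rw [show -(k - (m : ℤ)) = -k + m by ring, zpow_add₀ hβne, zpow_natCast]
      ring
    have e2 : z * (1 - α ^ (-(m : ℤ))) * α ^ k = z * α ^ k - z * α ^ (k - m) := by
      rw [zpow_sub₀ hα0, zpow_neg, zpow_natCast]
      field_simp
    rw [hdiff, e1, e2, Complex.sub_re]
    push_cast
    linarith
  · rw [abs_mul, abs_of_nonneg (by linarith : 0 ≤ 1 - β ^ (-(m : ℤ)))]
    have := h.hA
    nlinarith [abs_nonneg A]
  · rw [abs_mul, abs_sub_comm, abs_of_nonneg (by linarith : 0 ≤ β ^ m - 1), pow_add]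
    have := h.hB
    have h2 : 0 ≤ β ^ D := by positivity
    nlinarith [abs_nonneg B]
  · rw [norm_mul, norm_one_sub_zpow_neg hα]
    exact (mul_le_mul_of_nonneg_right h.hz (norm_nonneg _)).trans hε'
  · rw [pow_add]
    have e1 : A * (1 - β ^ (-(m : ℤ))) * (β ^ D * β ^ m) =
        A * β ^ D * (β ^ m - β ^ (-(m : ℤ)) * β ^ m) := by ring
    rw [e1, hmul]
    have := h.hA1
    nlinarith
  · intro k hk0 hk1
    rw [hdiff, mul_sub]
    set a := Real.pi * (A * β ^ k) with ha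
    set b := Real.pi * (A * β ^ (k - m)) with hb
    have hca : Real.cos a ≠ 0 := h.ne hβ1 hα (by linarith) k
    have hcb : Real.cos b ≠ 0 := h.ne hβ1 hα (by linarith) (k - m)
    have hprod := h.prod_small hβ hα hε hU hU5 hD hm k
    rw [← ha, ← hb] at hprod
    have hp := abs_le.mp hprod
    have hden : 0 < 1 + Real.tan a * Real.tan b := by linarith [hp.1]
    have hq : β ^ ((D : ℤ) - m) ≤ ε := by
      rw [zpow_natAbs_neg hβ0 (by omega)]
      refine le_trans ?_ hD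
      exact pow_le_pow_of_le_one hc0.le (inv_le_one_of_one_le₀ hβ1.le) (by omega)
    have hsum : |Real.tan a| + |Real.tan b| ≤ U + 11 / 2 * ε := by
      push_cast at hk1
      rcases le_or_gt k D with hk2 | hk2
      · have e1 := h.le_D hβ1 hU hk2
        have e2 := (h.neg hβ1 (k := k - m) (by omega)).2
        have e3 : β ^ (k - m) ≤ β ^ ((D : ℤ) - m) := zpow_le_zpow_right₀ hβ1.le (by omega)
        linarith
      · rcases le_or_gt k m with hk3 | hk3
        · have e1 := (h.pos hβ1 hα (by linarith) hk2.le).2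
          have e2 := (h.neg hβ1 (k := k - m) (by omega)).2
          have e3 : β ^ ((D : ℤ) - k) ≤ 1 := zpow_le_one_of_nonpos₀ hβ1.le (by omega)
          have e4 : β ^ (k - m) ≤ 1 := zpow_le_one_of_nonpos₀ hβ1.le (by omega)
          linarith
        · have e1 := (h.pos hβ1 hα (by linarith) hk2.le).2
          have e2 := h.le_D hβ1 hU (k := k - m) (by omega)
          have e3 : β ^ ((D : ℤ) - k) ≤ β ^ ((D : ℤ) - m) := zpow_le_zpow_right₀ hβ1.le (by omega)
          linarith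
    refine ⟨?_, ?_⟩
    · rw [cos_sub_eq hca hcb]
      exact mul_ne_zero (mul_ne_zero hca hcb) hden.ne'
    · rw [tan_sub_eq hca hcb, abs_div, abs_of_pos hden, div_le_iff₀ hden]
      have e1 : |Real.tan a - Real.tan b| ≤ |Real.tan a| + |Real.tan b| := abs_sub _ _
      have e2 : (U + 251 * ε) * (1 - 46 * ε) ≤ (U + 251 * ε) * (1 + Real.tan a * Real.tan b) := by
        apply mul_le_mul_of_nonneg_left _ (by linarith)
        linarith [hp.1]
      have e3 : U + 11 / 2 * ε ≤ (U + 251 * ε) * (1 - 46 * ε) := by nlinarith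
      linarith

theorem dirichlet (hα : ‖α‖ = 1) (Q : ℕ) (hQ : 0 < Q) :
    ∃ q : ℕ, 1 ≤ q ∧ q ≤ Q ∧ ‖1 - α ^ q‖ ≤ 2 * Real.pi / (Q + 1) := by
  obtain ⟨j, k, hk0, hk1, hk2⟩ := Real.exists_int_int_abs_mul_sub_le
    (Complex.arg α / (2 * Real.pi)) hQ
  lift k to ℕ using hk0.le
  refine ⟨k, by omega, by exact_mod_cast hk1, ?_⟩
  have h1 : α = Complex.exp (Complex.arg α * Complex.I) := by
    have := Complex.norm_mul_exp_arg_mul_I α
    rw [hα] at this
    simpa using this.symm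
  have h2 : α ^ k = Complex.exp (Complex.I *
      ((2 * Real.pi * (k * (Complex.arg α / (2 * Real.pi)) - j) : ℝ) : ℂ)) := by
    conv_lhs => rw [h1]
    rw [← Complex.exp_nat_mul, Complex.exp_eq_exp_iff_exists_int]
    refine ⟨j, ?_⟩
    have : (Real.pi : ℂ) ≠ 0 := by exact_mod_cast Real.pi_ne_zero
    push_cast
    field_simp
    ring
  rw [h2, norm_sub_rev]
  refine (Real.norm_exp_I_mul_ofReal_sub_one_le).trans ?_
  rw [Real.norm_eq_abs, abs_mul, abs_of_pos (by positivity : (0 : ℝ) < 2 * Real.pi)]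
  have h3 : |((k : ℤ) : ℝ) * (Complex.arg α / (2 * Real.pi)) - j| ≤ 1 / (Q + 1) := hk2
  rw [Int.cast_natCast] at h3
  calc 2 * Real.pi * |(k : ℝ) * (Complex.arg α / (2 * Real.pi)) - j|
      ≤ 2 * Real.pi * (1 / (Q + 1)) := mul_le_mul_of_nonneg_left h3 (by positivity)
    _ = _ := by ring

lemma norm_one_sub_pow_mul (hα : ‖α‖ = 1) (q r : ℕ) :
    ‖1 - α ^ (q * r)‖ ≤ r * ‖1 - α ^ q‖ := by
  induction r with
  | zero => simp
  | succ r ih =>
    have h1 : 1 - α ^ (q * (r + 1)) = (1 - α ^ (q * r)) + α ^ (q * r) * (1 - α ^ q) := by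
      rw [Nat.mul_succ, pow_add]; ring
    rw [h1]
    refine (norm_add_le _ _).trans ?_
    rw [norm_mul, norm_pow, hα, one_pow, one_mul]
    push_cast
    linarith

lemma pow_inv_bound (hβ : 5 / 3 ≤ β) {j : ℕ} (hj : 4 ≤ j) :
    (β⁻¹) ^ j ≤ 9 / (2 * (j : ℝ) ^ 2) := by
  have hβ0 : 0 < β := by linarith
  have key : ∀ j : ℕ, 4 ≤ j → 2 / 9 * (j : ℝ) ^ 2 ≤ (5 / 3 : ℝ) ^ j := by
    intro j hj
    induction j, hj using Nat.le_induction with
    | base => norm_num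
    | succ j hj ih =>
      have h4 : (4 : ℝ) ≤ j := by exact_mod_cast hj
      have h5 : ((j : ℝ) + 1) ^ 2 ≤ 5 / 3 * (j : ℝ) ^ 2 := by nlinarith
      rw [pow_succ (5 / 3 : ℝ) j]
      push_cast
      linarith
  have h1 := key j hj
  have h2 : (5 / 3 : ℝ) ^ j ≤ β ^ j := pow_le_pow_left₀ (by norm_num) hβ j
  have hj0 : (0 : ℝ) < j := by
    have : 0 < j := by omega
    exact_mod_cast this
  rw [inv_pow, inv_eq_one_div, div_le_div_iff₀ (by positivity) (by positivity)]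
  nlinarith

lemma EB_le (hβ : 5 / 3 ≤ β) (_hU : 1 ≤ U) (hU5 : U ≤ 5) (hε0 : 0 ≤ ε) (hD : 20 ≤ D)
    {m : ℕ} (hm : 2 * D ≤ m) (n : ℕ) :
    EB β D U ε m n ≤ 34 / D + 5 * ε * (10 + 5 * (D + 1)) + 25 * ε ^ 2 * (n + 1) := by
  have hβ0 : 0 < β := by linarith
  unfold EB
  have hD0 : (20 : ℝ) ≤ D := by exact_mod_cast hD
  have h1 : 1 / 2 * U * (β⁻¹) ^ (m - D) * (16 + m) ≤ 34 / D := by
    obtain ⟨j, rfl⟩ : ∃ j, m = D + j := ⟨m - D, by omega⟩
    have hj : D ≤ j := by omega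
    have hjR : (D : ℝ) ≤ j := by exact_mod_cast hj
    rw [show D + j - D = j by omega]
    have h2 := pow_inv_bound hβ (j := j) (by omega)
    have h3 : 0 ≤ (β⁻¹) ^ j := by positivity
    have h4 : (16 : ℝ) + (D + j : ℕ) ≤ 3 * j := by push_cast; linarith
    have hj0 : (0 : ℝ) < j := by linarith
    calc 1 / 2 * U * (β⁻¹) ^ j * (16 + (D + j : ℕ))
        ≤ 1 / 2 * 5 * (9 / (2 * (j : ℝ) ^ 2)) * (3 * j) := by
          apply mul_le_mul _ h4 (by positivity) (by positivity)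
          apply mul_le_mul (by linarith) h2 h3 (by norm_num)
      _ = (135 / 4) / j := by field_simp; ring
      _ ≤ 34 / j := div_le_div_of_nonneg_right (by norm_num) hj0.le
      _ ≤ 34 / D := div_le_div_of_nonneg_left (by norm_num) (by linarith) hjR
  have h5 : 5 * ε * (10 + U * (D + 1)) ≤ 5 * ε * (10 + 5 * (D + 1)) := by
    apply mul_le_mul_of_nonneg_left _ (by positivity)
    nlinarith
  linarith

/-- potential of a pair `(D, ε)` -/
def W (D : ℕ) (ε : ℝ) : ℝ := -Real.log ε - Real.log D / 3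

/-- good parameters -/
structure Good (β : ℝ) (α : ℂ) (D : ℕ) (U ε κ : ℝ) : Prop where
  ex : ∃ (A B : ℝ) (z : ℂ), St β α A B z D U ε ∧ Real.exp (-κ) ≤ |Phi β⁻¹ (T A β D)|
  D20 : 20 ≤ D
  ε0 : 0 < ε
  ε1 : ε ≤ 1 / 1000
  rD : (β⁻¹) ^ D ≤ ε
  Dε : D * ε ≤ 1
  U1 : 1 ≤ U
  U5 : U + 510 * ε ≤ 5

variable {κ : ℝ}

theorem Good.shift (h : Good β α D U ε κ) (hβ : 5 / 3 ≤ β) (hα : ‖α‖ = 1)
    {m : ℕ} (hm : 2 * D ≤ m) (hm2 : ε ^ 2 * m ≤ 1) {ε' : ℝ} (h1 : ε * ‖1 - α ^ m‖ ≤ ε')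
    (h2 : ε ^ 3 ≤ ε') (h3 : ε' ≤ ε / 2) (h4 : ((D + m : ℕ) : ℝ) * ε' ≤ 1) :
    Good β α (D + m) (U + 251 * ε) ε' (2 * κ + 140) := by
  have hβ1 : 1 < β := by linarith
  have hβ0 : 0 < β := by linarith
  obtain ⟨A, B, z, hst, hκ⟩ := h.ex
  have hε0 := h.ε0
  have hε1 := h.ε1
  have hU1 := h.U1
  have hU5 := h.U5
  have hD20 := h.D20
  have hD20R : (20 : ℝ) ≤ D := by exact_mod_cast hD20
  have hUle : U ≤ 5 := by linarith
  have hε'0 : 0 < ε' := lt_of_lt_of_le (by positivity) h2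
  refine ⟨⟨_, _, _, hst.shift hβ hα hε1 hU1 hUle h.rD (by omega) hm h1, ?_⟩, by omega, hε'0,
    by linarith, ?_, h4, by linarith, by linarith⟩
  · -- lower bound of the transform
    have hT : T (A * (1 - β ^ (-(m : ℤ)))) β (D + m) = T A β (D + m) - T A β D := by
      unfold T
      have e : β ^ (-(m : ℤ)) * β ^ (((D + m : ℕ)) : ℤ) = β ^ (D : ℤ) := by
        rw [← zpow_add₀ hβ0.ne']
        congr 1; push_cast; ring
      calc Real.pi * (A * (1 - β ^ (-(m : ℤ))) * β ^ (((D + m : ℕ)) : ℤ)) =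
          Real.pi * (A * β ^ (((D + m : ℕ)) : ℤ)) -
            Real.pi * (A * (β ^ (-(m : ℤ)) * β ^ (((D + m : ℕ)) : ℤ))) := by ring
        _ = _ := by rw [e]
    rw [hT]
    have hr := (hst.ratio hβ hα hε1 hU1 hUle h.rD hm D).2.2
    have hl := hst.lower hβ hα (by linarith) m
    refine le_trans ?_ hr
    have hE := EB_le (ε := ε) hβ hU1 hUle hε0.le hD20 hm (D + m)
    have hE2 : EB β D U ε m (D + m) ≤ 52 := by
      refine hE.trans ?_
      have e1 : (34 : ℝ) / D ≤ 34 / 20 := div_le_div_of_nonneg_left (by norm_num) (by norm_num) hD20R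
      have e2 := h.Dε
      have e3 : 5 * ε * (10 + 5 * ((D : ℝ) + 1)) = 75 * ε + 25 * (D * ε) := by ring
      have e4 : 25 * ε ^ 2 * (((D + m : ℕ) : ℝ) + 1) = 25 * ε * (D * ε) + 25 * (ε ^ 2 * m) +
          25 * ε ^ 2 := by push_cast; ring
      rw [e3, e4]
      have e5 : 25 * ε * (D * ε) ≤ 25 * ε * 1 := mul_le_mul_of_nonneg_left e2 (by positivity)
      nlinarith
    rw [abs_mul, add_comm D m]
    rw [add_comm D m] at hl hE2
    have hκ' : Real.exp (-(2 * κ + 140)) ≤ Real.exp (-104) * ((Real.exp (-κ) * Real.exp (-26)) *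
        Real.exp (-κ)) := by
      rw [← Real.exp_add, ← Real.exp_add, ← Real.exp_add, Real.exp_le_exp]
      linarith
    refine hκ'.trans ?_
    apply mul_le_mul
    · rw [Real.exp_le_exp]; linarith
    · apply mul_le_mul _ hκ (Real.exp_pos _).le (abs_nonneg _)
      refine le_trans ?_ hl
      apply mul_le_mul hκ _ (Real.exp_pos _).le (abs_nonneg _)
      rw [Real.exp_le_exp]
      nlinarith
    · positivity
    · positivity
  · calc (β⁻¹) ^ (D + m) ≤ (β⁻¹) ^ (D * 3) :=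
          pow_le_pow_of_le_one (by positivity) (inv_le_one_of_one_le₀ hβ1.le) (by omega)
      _ = ((β⁻¹) ^ D) ^ 3 := pow_mul _ _ _
      _ ≤ ε ^ 3 := pow_le_pow_left₀ (by positivity) h.rD 3
      _ ≤ ε' := h2

set_option maxHeartbeats 1000000 in
theorem Good.step (h : Good β α D U ε κ) (hβ : 5 / 3 ≤ β) (hα : ‖α‖ = 1) :
    ∃ (D' : ℕ) (U' ε' : ℝ), Good β α D' U' ε' (2 * κ + 140) ∧ 3 * D ≤ D' ∧
      (D' : ℝ) * ε' ≤ 65 * ε ∧ 7 / 3 * W D ε - 4 ≤ W D' ε' := by
  have hε0 := h.ε0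
  have hε1 := h.ε1
  have hDε := h.Dε
  have hD20 := h.D20
  have hD20R : (20 : ℝ) ≤ D := by exact_mod_cast hD20
  have hpi := Real.pi_lt_d2
  have hpi0 := Real.pi_pos
  have hsq : (1 : ℝ) / ε ^ 2 * ε ^ 2 = 1 := by field_simp
  have hinv : 1000000 ≤ 1 / ε ^ 2 := by
    rw [le_div_iff₀ (by positivity)]
    nlinarith
  set Q := ⌊1 / ε ^ 2⌋₊ with hQ
  have hQ1 : (Q : ℝ) ≤ 1 / ε ^ 2 := Nat.floor_le (by positivity)
  have hQ2 : 1 / ε ^ 2 < Q + 1 := Nat.lt_floor_add_one _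
  have hQ0 : 0 < Q := by
    have : (0 : ℝ) < Q := by linarith
    exact_mod_cast this
  obtain ⟨q, hq1, hq2, hq3⟩ := dirichlet hα Q hQ0
  have hq2R : (q : ℝ) ≤ Q := by exact_mod_cast hq2
  have hq4 : ‖1 - α ^ q‖ ≤ 2 * Real.pi * ε ^ 2 := by
    refine hq3.trans ?_
    rw [div_le_iff₀ (by positivity)]
    have : 1 ≤ ε ^ 2 * (Q + 1) := by nlinarith
    nlinarith
  have hεq : ε ^ 2 * q ≤ 1 := by
    have : ε ^ 2 * q ≤ ε ^ 2 * (1 / ε ^ 2) :=
      mul_le_mul_of_nonneg_left (hq2R.trans hQ1) (by positivity)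
    linarith
  have hlogε : Real.log ε ≤ 0 := Real.log_nonpos hε0.le (by linarith)
  have hlogD : 0 ≤ Real.log D := Real.log_nonneg (by linarith)
  have hlogDε : Real.log D + Real.log ε ≤ 0 := by
    rw [← Real.log_mul (by positivity) hε0.ne']
    exact Real.log_nonpos (by positivity) hDε
  have hlog2 : Real.log 2 ≤ 0.6931471808 := Real.log_two_lt_d9.le
  have hlog8 : Real.log 8 ≤ 2.1 := by
    rw [show (8 : ℝ) = 2 ^ 3 by norm_num, Real.log_pow]; push_cast; linarith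
  have hlog7 : Real.log 7 ≤ 2.1 := (Real.log_le_log (by norm_num) (by norm_num)).trans hlog8
  have hlog5 : Real.log 5 ≤ 2.1 := (Real.log_le_log (by norm_num) (by norm_num)).trans hlog8
  have hlog13 : Real.log 13 ≤ 2.8 := by
    refine (Real.log_le_log (by norm_num) (by norm_num : (13 : ℝ) ≤ 16)).trans ?_
    rw [show (16 : ℝ) = 2 ^ 4 by norm_num, Real.log_pow]; push_cast; linarith
  rcases le_or_gt (2 * D) q with hc | hc
  · -- case A
    have hD' : (((D + q : ℕ)) : ℝ) ≤ 2 / ε ^ 2 := by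
      push_cast
      have e1 : (D : ℝ) ≤ 1 / ε ^ 2 := by
        rw [le_div_iff₀ (by positivity)]
        nlinarith
      have e2 : (q : ℝ) ≤ 1 / ε ^ 2 := hq2R.trans hQ1
      have e3 : (2 : ℝ) / ε ^ 2 = 1 / ε ^ 2 + 1 / ε ^ 2 := by ring
      linarith
    have hDq : (((D + q : ℕ)) : ℝ) * ε ^ 2 ≤ 2 := by
      rwa [le_div_iff₀ (by positivity)] at hD'
    have hfin : (((D + q : ℕ)) : ℝ) * (7 * ε ^ 3) ≤ 14 * ε := by nlinarith
    refine ⟨D + q, U + 251 * ε, 7 * ε ^ 3, h.shift hβ hα hc hεq ?_ ?_ ?_ ?_, by omega, by linarith, ?_⟩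
    · have e1 : ε * ‖1 - α ^ q‖ ≤ ε * (2 * Real.pi * ε ^ 2) := mul_le_mul_of_nonneg_left hq4 hε0.le
      have e2 : 0 < ε ^ 3 := by positivity
      nlinarith
    · have e2 : 0 < ε ^ 3 := by positivity
      linarith
    · have : ε ^ 2 ≤ 1 / 1000000 := by nlinarith
      nlinarith
    · linarith
    · unfold W
      have e1 : Real.log (7 * ε ^ 3) = Real.log 7 + 3 * Real.log ε := by
        rw [Real.log_mul (by norm_num) (by positivity), Real.log_pow]; push_cast; ring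
      have e2 : Real.log ((D + q : ℕ) : ℝ) ≤ Real.log 2 - 2 * Real.log ε := by
        have h0 : (0 : ℝ) < ((D + q : ℕ) : ℝ) := by
          have : 0 < D + q := by omega
          exact_mod_cast this
        refine (Real.log_le_log h0 hD').trans ?_
        rw [Real.log_div (by norm_num) (by positivity), Real.log_pow]; push_cast; linarith
      rw [e1]
      linarith
  · -- case B
    have hqpos : 0 < q := hq1
    obtain ⟨r, hr1, hr2, hr3⟩ : ∃ r : ℕ, 2 * D ≤ q * r ∧ q * r ≤ 4 * D ∧ r ≤ 2 * D + 1 := by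
      refine ⟨2 * D / q + 1, ?_, ?_, ?_⟩
      · have h1 := Nat.div_add_mod (2 * D) q
        have h2 := Nat.mod_lt (2 * D) hqpos
        rw [Nat.mul_add, mul_one]
        omega
      · have h1 : q * (2 * D / q) ≤ 2 * D := Nat.mul_div_le _ _
        rw [Nat.mul_add, mul_one]
        omega
      · have h1 : 2 * D / q ≤ 2 * D := Nat.div_le_self _ _
        omega
    have hr3R : (r : ℝ) ≤ 2 * D + 1 := by exact_mod_cast hr3
    have hr2R : ((q * r : ℕ) : ℝ) ≤ 4 * D := by exact_mod_cast hr2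
    have hnorm : ‖1 - α ^ (q * r)‖ ≤ 13 * D * ε ^ 2 := by
      refine (norm_one_sub_pow_mul hα q r).trans ?_
      have e1 : (r : ℝ) * ‖1 - α ^ q‖ ≤ (2 * D + 1) * (2 * Real.pi * ε ^ 2) :=
        mul_le_mul hr3R hq4 (norm_nonneg _) (by positivity)
      have e2 : 0 < ε ^ 2 := by positivity
      have e3 : (2 * (D : ℝ) + 1) * (2 * Real.pi) ≤ 13 * D := by
        have e3a : 2 * Real.pi ≤ 6.3 := by linarith
        have e3b := mul_le_mul_of_nonneg_left e3a (by linarith : 0 ≤ 2 * (D : ℝ) + 1)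
        linarith
      have e4 := mul_le_mul_of_nonneg_right e3 e2.le
      refine e1.trans ?_
      linarith
    generalize q * r = m at *
    have hDq : (((D + m : ℕ)) : ℝ) ≤ 5 * D := by push_cast; linarith
    have hDD : (D : ℝ) ^ 2 * ε ^ 2 ≤ 1 := by
      have : (D * ε) ^ 2 ≤ 1 := pow_le_one₀ (by positivity) hDε
      nlinarith
    have hfin : (((D + m : ℕ)) : ℝ) * (13 * D * ε ^ 3) ≤ 65 * ε := by
      calc (((D + m : ℕ)) : ℝ) * (13 * D * ε ^ 3) ≤ (5 * D) * (13 * D * ε ^ 3) :=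
            mul_le_mul_of_nonneg_right hDq (by positivity)
        _ = 65 * ε * ((D : ℝ) ^ 2 * ε ^ 2) := by ring
        _ ≤ 65 * ε * 1 := mul_le_mul_of_nonneg_left hDD (by positivity)
        _ = 65 * ε := by ring
    refine ⟨D + m, U + 251 * ε, 13 * D * ε ^ 3, h.shift hβ hα hr1 ?_ ?_ ?_ ?_ ?_, by omega,
      hfin, ?_⟩
    · have e1 : ε ^ 2 * (m : ℝ) ≤ ε ^ 2 * (4 * D) :=
        mul_le_mul_of_nonneg_left hr2R (by positivity)
      have e2 : ε ^ 2 * (4 * D) = 4 * ε * (D * ε) := by ring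
      nlinarith
    · have e1 : ε * ‖1 - α ^ m‖ ≤ ε * (13 * D * ε ^ 2) :=
        mul_le_mul_of_nonneg_left hnorm hε0.le
      linarith [e1, show ε * (13 * D * ε ^ 2) = 13 * D * ε ^ 3 by ring]
    · have e2 : 0 < ε ^ 3 := by positivity
      nlinarith
    · have e1 : 13 * D * ε ^ 3 = 13 * ε ^ 2 * (D * ε) := by ring
      have e2 : 13 * ε ^ 2 * (D * ε) ≤ 13 * ε ^ 2 * 1 :=
        mul_le_mul_of_nonneg_left hDε (by positivity)
      rw [e1]
      nlinarith
    · linarith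
    · unfold W
      have e1 : Real.log (13 * D * ε ^ 3) = Real.log 13 + Real.log D + 3 * Real.log ε := by
        rw [Real.log_mul (by positivity) (by positivity), Real.log_mul (by norm_num) (by positivity),
          Real.log_pow]
        push_cast; ring
      have e2 : Real.log ((D + m : ℕ) : ℝ) ≤ Real.log 5 + Real.log D := by
        have h0 : (0 : ℝ) < ((D + m : ℕ) : ℝ) := by
          have : 0 < D + m := by omega
          exact_mod_cast this
        refine (Real.log_le_log h0 hDq).trans ?_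
        rw [Real.log_mul (by norm_num) (by positivity)]
      rw [e1]
      linarith

end

end Crest.Agent.H8.BC
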