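import Mathlib
import Crest.Agent.H8.BC.Step

set_option autoImplicit false

open MeasureTheory Filter Topology Set

namespace Crest.Agent.H8.BC

noncomputable section

variable {β : ℝ} {α : ℂ} {D : ℕ} {U ε κ : ℝ}

lemma Good.logε (h : Good β α D U ε κ) : ε ≤ Real.exp (-W D ε) := by
  have h1 : 0 ≤ Real.log D := by
    apply Real.log_nonneg
    have := h.D20
    exact_mod_cast (by omega : 1 ≤ D)
  rw [← Real.log_le_iff_le_exp h.ε0]
  unfold W
  linarith

theorem Good.iterate (h : Good β α D U ε κ) (hβ : 5 / 3 ≤ β) (hα : ‖α‖ = 1) (r : ℕ) :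
    ∃ (D' : ℕ) (U' ε' : ℝ), Good β α D' U' ε' (2 ^ r * (κ + 140) - 140) ∧ 3 ^ r ≤ D' ∧
      3 + (7 / 3) ^ r * (W D ε - 3) ≤ W D' ε' := by
  induction r with
  | zero =>
    refine ⟨D, U, ε, ?_, ?_, ?_⟩
    · convert! h using 1
      ring
    · have := h.D20
      simp; omega
    · simp
  | succ r ih =>
    obtain ⟨D1, U1, ε1, h1, h2, h3⟩ := ih
    obtain ⟨D2, U2, ε2, h4, h5, h6, h7⟩ := h1.step hβ hα
    refine ⟨D2, U2, ε2, ?_, ?_, ?_⟩
    · convert! h4 using 1
      ring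
    · rw [pow_succ]; omega
    · rw [pow_succ]
      linarith

theorem Good.exists_large (h : Good β α D U ε κ) (hβ : 5 / 3 ≤ β) (hα : ‖α‖ = 1)
    (hW : 3 < W D ε) (M : ℝ) (hM : 1 ≤ M) :
    ∃ (D' : ℕ) (U' ε' κ' : ℝ), Good β α D' U' ε' κ' ∧ M ≤ D' ∧ M * (D' * ε') ≤ 1 ∧
      M * (ε' ^ 2 * D') ≤ Real.exp (-(2 * κ')) := by
  set w := W D ε - 3 with hw
  have hw0 : 0 < w := by linarith
  set K := κ + 140 with hK
  -- eventually large
  have t1 : Tendsto (fun s : ℕ => (7 / 6 : ℝ) ^ s * w - 2 * K) atTop atTop := by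
    apply tendsto_atTop_add_const_right
    exact (tendsto_pow_atTop_atTop_of_one_lt (by norm_num)).atTop_mul_const hw0
  have t2 : Tendsto (fun s : ℕ => (2 : ℝ) ^ s * ((7 / 6 : ℝ) ^ s * w - 2 * K)) atTop atTop :=
    (tendsto_pow_atTop_atTop_of_one_lt (by norm_num)).atTop_mul_atTop₀ t1
  have t3 : Tendsto (fun s : ℕ => (7 / 3 : ℝ) ^ s * w) atTop atTop :=
    (tendsto_pow_atTop_atTop_of_one_lt (by norm_num)).atTop_mul_const hw0
  have t4 : Tendsto (fun s : ℕ => (3 : ℝ) ^ s) atTop atTop :=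
    tendsto_pow_atTop_atTop_of_one_lt (by norm_num)
  have t2' := t2.comp (tendsto_add_atTop_nat 1)
  obtain ⟨r, hr1, hr2, hr3⟩ := ((t2'.eventually_ge_atTop (Real.log M)).and
    ((t3.eventually_ge_atTop (Real.log (65 * M))).and (t4.eventually_ge_atTop M))).exists
  simp only [Function.comp_apply] at hr1
  obtain ⟨D1, U1, ε1, h1, h2, h3⟩ := h.iterate hβ hα r
  obtain ⟨D2, U2, ε2, h4, h5, h6, h7⟩ := h1.step hβ hα
  have hM0 : 0 < M := by linarith
  refine ⟨D2, U2, ε2, _, h4, ?_, ?_, ?_⟩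
  · have e1 : (3 : ℝ) ^ r ≤ D1 := by exact_mod_cast h2
    have e2 : 3 * (D1 : ℝ) ≤ D2 := by exact_mod_cast h5
    have e3 : (0 : ℝ) ≤ D1 := Nat.cast_nonneg _
    linarith
  · have e1 := h1.logε
    have e2 : 65 * M * Real.exp (-W D1 ε1) ≤ 1 := by
      rw [← Real.exp_log (show 0 < 65 * M by positivity), ← Real.exp_add, Real.exp_le_one_iff]
      linarith
    calc M * (D2 * ε2) ≤ M * (65 * ε1) := mul_le_mul_of_nonneg_left h6 hM0.le
      _ = 65 * M * ε1 := by ring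
      _ ≤ 65 * M * Real.exp (-W D1 ε1) := mul_le_mul_of_nonneg_left e1 (by positivity)
      _ ≤ 1 := e2
  · have e1 := h4.logε
    have e2 := h4.Dε
    have e3 := h4.ε0
    have e4 : M * (ε2 ^ 2 * D2) ≤ M * ε2 := by
      have : ε2 ^ 2 * D2 = ε2 * (D2 * ε2) := by ring
      rw [this]
      apply mul_le_mul_of_nonneg_left _ hM0.le
      exact mul_le_of_le_one_right e3.le e2
    refine e4.trans ?_
    calc M * ε2 ≤ M * Real.exp (-W D2 ε2) := mul_le_mul_of_nonneg_left e1 hM0.le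
      _ = Real.exp (Real.log M - W D2 ε2) := by
          rw [sub_eq_add_neg, Real.exp_add, Real.exp_log hM0]
      _ ≤ _ := by
          rw [Real.exp_le_exp]
          have e5 : (2 : ℝ) ^ (r + 1) * ((7 / 6) ^ (r + 1) * w - 2 * K) =
              (7 / 3) ^ (r + 1) * w - 2 * (2 ^ (r + 1) * K) := by
            rw [show (7 / 3 : ℝ) = 2 * (7 / 6) by norm_num, mul_pow]; ring
          rw [e5] at hr1
          have e6 : 3 + (7 / 3) ^ (r + 1) * w ≤ W D2 ε2 := by
            rw [pow_succ]; linarith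
          have e7 : 2 * (2 * (2 ^ r * K - 140) + 140) = 2 * (2 ^ (r + 1) * K) - 280 := by
            rw [pow_succ]; ring
          linarith

end

end Crest.Agent.H8.BC
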