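import Mathlib
import Crest.Agent.H8.BC.Iter

set_option autoImplicit false

open MeasureTheory Filter Topology Set

namespace Crest.Agent.H8.BC

noncomputable section

lemma int_of_rec (f : ℤ → ℝ) (p q : ℤ)
    (hrec : ∀ k, f (k + 2) + p * f (k + 1) + q * f k + p * f (k - 1) + f (k - 2) = 0)
    (h0 : ∃ n : ℤ, f (-1) = n) (h1 : ∃ n : ℤ, f 0 = n) (h2 : ∃ n : ℤ, f 1 = n)
    (h3 : ∃ n : ℤ, f 2 = n) : ∀ k, ∃ n : ℤ, f k = n := by
  have key : ∀ k : ℤ, (∃ n : ℤ, f (k - 1) = n) ∧ (∃ n : ℤ, f k = n) ∧ (∃ n : ℤ, f (k + 1) = n) ∧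
      (∃ n : ℤ, f (k + 2) = n) := by
    intro k
    induction k using Int.induction_on with
    | zero => simpa using ⟨h0, h1, h2, h3⟩
    | succ k ih =>
      obtain ⟨⟨a, ha⟩, ⟨b, hb⟩, ⟨c, hc⟩, ⟨d, hd⟩⟩ := ih
      refine ⟨⟨b, by rw [← hb]; congr 1; ring⟩, ⟨c, hc⟩,
        ⟨d, by rw [← hd, add_assoc]; norm_num⟩, ⟨-p * d - q * c - p * b - a, ?_⟩⟩
      have := hrec (k + 1)
      rw [show (k : ℤ) + 1 + 1 = k + 2 by ring, show (k : ℤ) + 1 - 1 = k by ring,
        show (k : ℤ) + 1 - 2 = k - 1 by ring, ha, hb, hc, hd] at this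
      push_cast
      linarith
    | pred k ih =>
      obtain ⟨⟨a, ha⟩, ⟨b, hb⟩, ⟨c, hc⟩, ⟨d, hd⟩⟩ := ih
      refine ⟨⟨-p * a - q * b - p * c - d, ?_⟩, ⟨a, ha⟩, ⟨b, by rw [← hb]; congr 1; ring⟩,
        ⟨c, by rw [← hc]; congr 1; ring⟩⟩
      have := hrec (-k)
      rw [ha, hb, hc, hd] at this
      have e : f (-(k : ℤ) - 1 - 1) = f (-(k : ℤ) - 2) := by congr 1; ring
      rw [e]
      push_cast
      linarith
  exact fun k => (key k).2.1

/-- bound of the tangent away from the half integers -/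
lemma tan_of_dist {x δ : ℝ} (h : ℤ) (hδ : 0 < δ) (h1 : h + 1 / 2 + δ ≤ x)
    (h2 : x ≤ h + 3 / 2 - δ) :
    Real.cos (Real.pi * x) ≠ 0 ∧ |Real.tan (Real.pi * x)| ≤ 1 / (Real.pi * δ) := by
  have hpi := Real.pi_pos
  set y := ((h + 1 : ℤ) : ℝ) - x with hy
  have hyabs : |y| ≤ 1 / 2 - δ := by
    rw [abs_le, hy]; push_cast; constructor <;> linarith
  have hx : x = ((h + 1 : ℤ) : ℝ) - y := by rw [hy]; ring
  have hpos : 0 < Real.cos (Real.pi * y) := by
    rw [← Real.cos_abs, abs_mul, abs_of_pos hpi]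
    apply Real.cos_pos_of_mem_Ioo
    constructor
    · have := abs_nonneg y
      have : 0 ≤ Real.pi * |y| := by positivity
      linarith
    · nlinarith
  rw [hx]
  refine ⟨cos_int_sub _ _ hpos.ne', ?_⟩
  rw [tan_int_sub, abs_neg]
  -- reduce to `|y|`
  have e1 : |Real.tan (Real.pi * y)| = |Real.tan (Real.pi * |y|)| := by
    rcases abs_cases y with ⟨h3, _⟩ | ⟨h3, _⟩
    · rw [h3]
    · rw [h3, mul_neg, Real.tan_neg, abs_neg]
  rw [e1]
  set w := Real.pi / 2 - Real.pi * |y| with hw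
  have hw1 : Real.pi * δ ≤ w := by
    rw [hw]
    nlinarith
  have hw0 : 0 < w := lt_of_lt_of_le (by positivity) hw1
  have e2 : Real.pi * |y| = Real.pi / 2 - w := by rw [hw]; ring
  rw [e2, Real.tan_pi_div_two_sub]
  rcases lt_or_ge w (Real.pi / 2) with hlt | hge
  · have h3 := Real.lt_tan hw0 hlt
    rw [abs_inv, abs_of_pos (hw0.trans h3), one_div]
    exact inv_anti₀ (by positivity) (hw1.trans h3.le)
  · have h4 : w = Real.pi / 2 := by
      apply le_antisymm _ hge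
      rw [hw]
      have : 0 ≤ Real.pi * |y| := by positivity
      linarith
    rw [h4, Real.tan_pi_div_two]
    simp
    positivity

theorem base_good (β : ℝ) (α : ℂ) (A : ℝ) (z : ℂ) (hβ : 5 / 3 ≤ β) (hα : ‖α‖ = 1)
    (hint : ∀ k : ℤ, ∃ n : ℤ, A * β ^ k + (A * β) * β ^ (-k) + (z * α ^ k).re = n)
    (hz : ‖z‖ ≤ 11 / 20000) (hA1 : 1 ≤ A)
    (hy : ∀ i : ℕ, i ≤ 14 → ∃ h : ℤ, h + 1 / 2 + 343 / 5000 ≤ A * (β⁻¹) ^ i ∧
      A * (β⁻¹) ^ i ≤ h + 3 / 2 - 343 / 5000)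
    (hA14 : A * (β⁻¹) ^ 14 ≤ 1 / 9) :
    Good β α 29 (47 / 10) (11 / 20000) ((((47 / 10 : ℝ)) ^ 2 * (29 + 1) + 5) / 2) := by
  have hβ1 : 1 < β := by linarith
  have hβ0 : 0 < β := by linarith
  have hβne : β ≠ 0 := hβ0.ne'
  have hα0 : α ≠ 0 := by
    intro h; rw [h, norm_zero] at hα; norm_num at hα
  have hpi := Real.pi_gt_d2
  have hA0 : 0 < A := by linarith
  have hinv : ∀ i : ℕ, (β⁻¹) ^ i = β ^ (-(i : ℤ)) := fun i => by
    rw [inv_pow, zpow_neg, zpow_natCast]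
  have hU47 : 1 / (Real.pi * (17 / 250)) ≤ 47 / 10 := by
    rw [div_le_div_iff₀ (by positivity) (by norm_num)]
    linarith
  have hst : St β α (A * β ^ (-14 : ℤ)) (A * β * β ^ (14 : ℤ)) (z * α ^ (-14 : ℤ)) 29 (47 / 10)
      (11 / 20000) := by
    have hA14' : A * β ^ (-14 : ℤ) ≤ 1 / 9 := by
      have := hA14
      rw [hinv] at this
      exact_mod_cast this
    have hAp : 0 < A * β ^ (-14 : ℤ) := by positivity
    refine ⟨?_, ?_, ?_, ?_, ?_, ?_⟩
    · intro k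
      obtain ⟨n, hn⟩ := hint (k - 14)
      refine ⟨n, ?_⟩
      rw [← hn, mul_assoc A, ← zpow_add₀ hβne, mul_assoc (A * β), ← zpow_add₀ hβne, mul_assoc z,
        ← zpow_add₀ hα0]
      rw [show (-14 : ℤ) + k = k - 14 by ring, show (14 : ℤ) + -k = -(k - 14) by ring]
    · rw [abs_of_pos hAp]; exact hA14'
    · rw [abs_of_pos (by positivity)]
      have e1 : A * β * β ^ (14 : ℤ) = (A * β ^ (-14 : ℤ)) * β ^ 29 := by
        rw [mul_assoc, mul_assoc, ← zpow_natCast β 29, ← zpow_add₀ hβne]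
        congr 1
        rw [← zpow_one_add₀ hβne]
        norm_num
      rw [e1]
      have h29 : 0 < β ^ 29 := by positivity
      nlinarith
    · rw [norm_mul, norm_zpow, hα, one_zpow, mul_one]; exact hz
    · have e1 : A * β ^ (-14 : ℤ) * β ^ 29 = A * β ^ 15 := by
        rw [mul_assoc, ← zpow_natCast β 29, ← zpow_add₀ hβne, ← zpow_natCast β 15]
        norm_num
      rw [e1]
      have : 1 ≤ β ^ 15 := one_le_pow₀ hβ1.le
      nlinarith
    · intro k hk0 hk1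
      rw [mul_assoc A, ← zpow_add₀ hβne]
      rcases le_or_gt k 14 with hk | hk
      · obtain ⟨i, hi⟩ : ∃ i : ℕ, (i : ℤ) = 14 - k := ⟨(14 - k).toNat, by omega⟩
        obtain ⟨h, h1, h2⟩ := hy i (by omega)
        have e : (-14 : ℤ) + k = -(i : ℤ) := by omega
        rw [e, ← hinv]
        have := tan_of_dist (x := A * (β⁻¹) ^ i) (δ := 17 / 250) h (by norm_num) (by linarith)
          (by linarith)
        exact ⟨this.1, this.2.trans hU47⟩
      · obtain ⟨i, hi⟩ : ∃ i : ℕ, (i : ℤ) = k - 15 := ⟨(k - 15).toNat, by omega⟩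
        push_cast at hk1
        obtain ⟨h, h1, h2⟩ := hy i (by omega)
        obtain ⟨n, hn⟩ := hint (-14 + k)
        have e : A * β * β ^ (-(-14 + k)) = A * (β⁻¹) ^ i := by
          rw [hinv, mul_assoc, ← zpow_one_add₀ hβne]
          congr 2
          omega
        rw [e] at hn
        have hre : |(z * α ^ (-14 + k)).re| ≤ 11 / 20000 := by
          calc |(z * α ^ (-14 + k)).re| ≤ ‖z * α ^ (-14 + k)‖ := Complex.abs_re_le_norm _
            _ = ‖z‖ := by rw [norm_mul, norm_zpow, hα, one_zpow, mul_one]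
            _ ≤ _ := hz
        rw [abs_le] at hre
        have e2 : A * β ^ (-14 + k) = n - (A * (β⁻¹) ^ i + (z * α ^ (-14 + k)).re) := by linarith
        have := tan_of_dist (x := A * (β⁻¹) ^ i + (z * α ^ (-14 + k)).re) (δ := 17 / 250) h
          (by norm_num) (by linarith) (by linarith)
        rw [e2, tan_int_sub, abs_neg]
        exact ⟨cos_int_sub _ _ this.1, this.2.trans hU47⟩
  refine ⟨⟨_, _, _, hst, ?_⟩, by norm_num, by norm_num, by norm_num, ?_, by norm_num, by norm_num,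
    by norm_num⟩
  · have := hst.base_pos hβ hα (by norm_num) (by norm_num)
    exact_mod_cast this
  · have h1 : β⁻¹ ≤ 3 / 5 := by
      rw [inv_le_comm₀ hβ0 (by norm_num)]; linarith
    calc (β⁻¹) ^ 29 ≤ (3 / 5 : ℝ) ^ 29 := pow_le_pow_left₀ (by positivity) h1 29
      _ ≤ _ := by norm_num

lemma W_base : 3 < W 29 (11 / 20000) := by
  unfold W
  have h1 : Real.log (11 / 20000) ≤ -6 := by
    rw [Real.log_le_iff_le_exp (by norm_num), Real.exp_neg]
    have h2 : Real.exp 6 ≤ 20000 / 11 := by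
      have h3 := Real.exp_one_lt_d9
      have h4 : Real.exp 6 = Real.exp 1 ^ 6 := by rw [← Real.exp_nat_mul]; norm_num
      rw [h4]
      have h5 : Real.exp 1 ^ 6 ≤ 2.7182818286 ^ 6 := pow_le_pow_left₀ (Real.exp_pos 1).le h3.le 6
      refine h5.trans (by norm_num)
    have h3 := inv_anti₀ (Real.exp_pos _) h2
    norm_num at h3 ⊢
    linarith
  have h2 : Real.log ((29 : ℕ) : ℝ) ≤ 3.5 := by
    refine (Real.log_le_log (by norm_num) (by norm_num : ((29 : ℕ) : ℝ) ≤ 32)).trans ?_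
    rw [show (32 : ℝ) = 2 ^ 5 by norm_num, Real.log_pow]
    have := Real.log_two_lt_d9
    push_cast; linarith
  linarith

end

end Crest.Agent.H8.BC
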