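import Mathlib
import Crest.Prelude.Def_BernoulliConv

set_option autoImplicit false

open Polynomial

namespace Crest.Agent.H8.BC

open Crest Crest.AnalysisR

lemma lin_indep4 {β : ℝ} (hdeg : (minpoly ℚ β).natDegree = 4) (c0 c1 c2 c3 : ℚ)
    (h : (c0 : ℝ) + c1 * β + c2 * β ^ 2 + c3 * β ^ 3 = 0) :
    c0 = 0 ∧ c1 = 0 ∧ c2 = 0 ∧ c3 = 0 := by
  set P : Cubic ℚ := ⟨c3, c2, c1, c0⟩ with hP
  have h0 : P.toPoly = 0 := by
    by_contra hne
    have h1 : aeval β P.toPoly = 0 := by
      rw [Cubic.toPoly]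
      simp [hP]
      linarith
    have h2 := Polynomial.natDegree_le_natDegree (minpoly.degree_le_of_ne_zero ℚ β hne h1)
    have h3 : P.toPoly.natDegree ≤ 3 := by
      rw [Cubic.toPoly]; exact natDegree_cubic_le
    omega
  rw [Cubic.toPoly_eq_zero_iff] at h0
  have h1 := congrArg Cubic.a h0
  have h2 := congrArg Cubic.b h0
  have h3 := congrArg Cubic.c h0
  have h4 := congrArg Cubic.d h0
  exact ⟨h4, h3, h2, h1⟩

lemma classify {β : ℝ} (hβ : IsQuarticSalem β) (hlt : β < 2) :
    (β + β⁻¹) ^ 2 - (β + β⁻¹) - 3 = 0 ∨ (β + β⁻¹) ^ 2 - 2 * (β + β⁻¹) - 1 = 0 := by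
  obtain ⟨h1, hint, hdeg, hinv, hroots⟩ := hβ
  have hβ0 : (0 : ℝ) < β := by linarith
  have hβne : β ≠ 0 := hβ0.ne'
  set f := minpoly ℤ β with hf
  have hmap : minpoly ℚ β = f.map (algebraMap ℤ ℚ) :=
    minpoly.isIntegrallyClosed_eq_field_fractions' ℚ hint
  have hmonic : f.Monic := minpoly.monic hint
  have hfdeg : f.natDegree = 4 := by
    rw [← hdeg, hmap, hmonic.natDegree_map]
  have hc4 : f.coeff 4 = 1 := by
    have := hmonic.coeff_natDegree
    rwa [hfdeg] at this
  have hev : ∀ {S : Type} [inst : Field S] [Algebra ℚ S] (x : S), aeval x (minpoly ℚ β) =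
      (f.coeff 0 : S) + f.coeff 1 * x + f.coeff 2 * x ^ 2 + f.coeff 3 * x ^ 3 + x ^ 4 := by
    intro S _ _ x
    rw [hmap, aeval_map_algebraMap, aeval_eq_sum_range, hfdeg]
    simp only [Finset.sum_range_succ, Finset.sum_range_zero, zsmul_eq_mul, hc4]
    simp
  set a := f.coeff 3
  set b := f.coeff 2
  set c := f.coeff 1
  set d := f.coeff 0
  have e1 : (d : ℝ) + c * β + b * β ^ 2 + a * β ^ 3 + β ^ 4 = 0 := by
    rw [← hev β]; exact minpoly.aeval ℚ β
  have e2 : (d : ℝ) * β ^ 4 + c * β ^ 3 + b * β ^ 2 + a * β + 1 = 0 := by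
    have := hev β⁻¹
    rw [hinv] at this
    have h3 : β ^ 4 * ((d : ℝ) + c * β⁻¹ + b * β⁻¹ ^ 2 + a * β⁻¹ ^ 3 + β⁻¹ ^ 4) = 0 := by
      rw [← this, mul_zero]
    rw [← h3]
    field_simp
  have e3 := lin_indep4 hdeg (1 - d * d) (a - d * c) (b - d * b) (c - d * a) (by
    push_cast
    linear_combination e2 - (d : ℝ) * e1)
  obtain ⟨k0, k1, k2, k3⟩ := e3
  have k0' : d * d = 1 := by
    have : (1 : ℚ) = (d * d : ℤ) := by push_cast; linarith
    exact_mod_cast this.symm
  have k2' : b = d * b := by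
    have : (b : ℚ) = (d * b : ℤ) := by push_cast; linarith
    exact_mod_cast this
  have k3' : c = d * a := by
    have : (c : ℚ) = (d * a : ℤ) := by push_cast; linarith
    exact_mod_cast this
  -- quadratic relations are impossible
  have noquad : ∀ r : ℚ, β ^ 2 + r * β + 1 ≠ 0 := by
    intro r hr
    have := lin_indep4 hdeg 1 r 1 0 (by push_cast; linarith)
    exact one_ne_zero this.1
  have hd : d = 1 := by
    rcases mul_self_eq_one_iff.mp k0' with h | h
    · exact h
    · exfalso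
      have hb0 : b = 0 := by rw [h] at k2'; omega
      have hca : c = -a := by rw [h] at k3'; omega
      rw [h, hb0, hca] at e1
      push_cast at e1
      have e4 : (β ^ 2 - 1) * (β ^ 2 + a * β + 1) = 0 := by linear_combination e1
      rcases mul_eq_zero.mp e4 with h5 | h5
      · nlinarith
      · exact noquad a (by push_cast; exact h5)
  have hca : c = a := by rw [hd] at k3'; omega
  rw [hd, hca] at e1
  push_cast at e1
  set τ := β + β⁻¹ with hτ
  have hq : τ ^ 2 + a * τ + (b - 2) = 0 := by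
    have h3 : β ^ 2 * (τ ^ 2 + a * τ + (b - 2)) = 0 := by
      rw [← e1, hτ]
      field_simp
      ring
    rcases mul_eq_zero.mp h3 with h | h
    · exact absurd h (by positivity)
    · exact h
  set τ' := -a - τ with hτ'
  have hβ2 : β ^ 2 = τ * β - 1 := by
    rw [hτ]; field_simp; ring
  have hττ' : τ * τ' = b - 2 := by rw [hτ']; linear_combination -hq
  have hneτ : τ' ≠ τ := by
    intro h
    have : τ = -a / 2 := by rw [hτ'] at h; linarith
    apply noquad (a / 2)
    push_cast
    rw [hβ2, this]; ring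
  -- the second trace is in [-2, 2]
  have hτ'b : τ' ^ 2 ≤ 4 := by
    by_contra hcon
    push Not at hcon
    set x : ℝ := (τ' + √(τ' ^ 2 - 4)) / 2 with hx
    have hs : √(τ' ^ 2 - 4) ^ 2 = τ' ^ 2 - 4 := Real.sq_sqrt (by linarith)
    have hx2 : x ^ 2 = τ' * x - 1 := by
      rw [hx]; linear_combination hs / 4
    have hx0 : aeval (x : ℂ) (minpoly ℚ β) = 0 := by
      rw [hev (x : ℂ), hd, hca]
      have h5 : (1 : ℝ) + a * x + b * x ^ 2 + a * x ^ 3 + x ^ 4 = 0 := by
        have h6 : (a : ℝ) = -(τ + τ') := by rw [hτ']; ring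
        have h7 : (b : ℝ) = 2 + τ * τ' := by rw [hττ']; ring
        rw [h6, h7]
        linear_combination (x ^ 2 - τ * x + 1) * hx2
      have h6 : ((1 + a * x + b * x ^ 2 + a * x ^ 3 + x ^ 4 : ℝ) : ℂ) = 0 := by
        rw [h5]; simp
      push_cast at h6 ⊢
      exact h6
    have hxne : x ≠ 0 := by
      intro h; rw [h] at hx2; norm_num at hx2
    rcases hroots _ hx0 with h | h | h
    · have h5 : x = β := by exact_mod_cast h
      rw [h5] at hx2
      apply hneτ
      have : (τ' - τ) * β = 0 := by linear_combination hβ2 - hx2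
      rcases mul_eq_zero.mp this with h | h
      · linarith
      · exact absurd h hβne
    · have h5 : x = β⁻¹ := by exact_mod_cast h
      have h6 : β = x⁻¹ := by rw [h5, inv_inv]
      have h7 : x + x⁻¹ = τ' := by
        field_simp
        linear_combination hx2
      have h8 : x + x⁻¹ = τ := by rw [← h6, h5, hτ]; ring
      exact hneτ (by rw [← h7, ← h8])
    · rw [Complex.norm_real, Real.norm_eq_abs] at h
      have h5 : x ^ 2 = 1 := by rw [← sq_abs, h]; norm_num
      have h6 : τ' * x = 2 := by linarith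
      have h7 : τ' ^ 2 * x ^ 2 = 4 := by
        have : (τ' * x) ^ 2 = 4 := by rw [h6]; norm_num
        linarith [mul_pow τ' x 2]
      rw [h5] at h7
      linarith
  have hτ'1 : -2 ≤ τ' := by nlinarith
  have hτ'2 : τ' ≤ 2 := by nlinarith
  have hβi : β * β⁻¹ = 1 := mul_inv_cancel₀ hβne
  have hβi0 : 0 < β⁻¹ := inv_pos.mpr hβ0
  have hτ2 : 2 < τ := by
    have : β * (τ - 2) = (β - 1) ^ 2 := by linear_combination -hβ2
    have h5 : 0 < β * (τ - 2) := by rw [this]; apply pow_pos; linarith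
    have h6 : 0 < τ - 2 := (mul_pos_iff_of_pos_left hβ0).mp h5
    linarith
  have hτ5 : τ < 5 / 2 := by
    have : β * (5 / 2 - τ) = (2 - β) * (β - 1 / 2) := by linear_combination hβ2
    have h5 : 0 < β * (5 / 2 - τ) := by
      rw [this]; apply mul_pos <;> linarith
    have h6 : 0 < 5 / 2 - τ := (mul_pos_iff_of_pos_left hβ0).mp h5
    linarith
  have ha' : (a : ℝ) = -(τ + τ') := by rw [hτ']; ring
  have hb' : (b : ℝ) = 2 + τ * τ' := by rw [hττ']; ring
  have i1 : b ≤ -2 - 2 * a := by
    have : (b : ℝ) ≤ -2 - 2 * a := by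
      rw [ha', hb']; nlinarith
    exact_mod_cast this
  have i1' : b ≠ -2 - 2 * a := by
    intro h
    have h5 : (b : ℝ) = -2 - 2 * a := by rw [h]; push_cast; ring
    rw [ha', hb'] at h5
    have h6 : (τ - 2) * (τ' - 2) = 0 := by linear_combination h5
    rcases mul_eq_zero.mp h6 with h7 | h7
    · linarith
    · have h8 : τ' = 2 := by linarith
      have h9 : (a : ℝ) = -τ - 2 := by rw [ha', h8]; ring
      have h10 : (-5 : ℝ) < a := by rw [h9]; linarith
      have h11 : (a : ℝ) < -4 := by rw [h9]; linarith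
      have h12 : (-5 : ℤ) < a := by exact_mod_cast h10
      have h13 : a < (-4 : ℤ) := by exact_mod_cast h11
      omega
  have i2 : -17 - 10 * a < 4 * b := by
    have : -17 - 10 * (a : ℝ) < 4 * b := by
      rw [ha', hb']; nlinarith
    exact_mod_cast this
  have i3 : 2 * a - 2 ≤ b := by
    have : 2 * (a : ℝ) - 2 ≤ b := by
      rw [ha', hb']; nlinarith
    exact_mod_cast this
  have hab : (a = -1 ∧ b = -1) ∨ (a = -2 ∧ b = 1) := by omega
  rcases hab with ⟨h5, h6⟩ | ⟨h5, h6⟩
  · left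
    rw [h5, h6] at hq
    push_cast at hq
    linear_combination hq
  · right
    rw [h5, h6] at hq
    push_cast at hq
    linear_combination hq

end Crest.Agent.H8.BC
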