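import Mathlib

set_option autoImplicit false

open MeasureTheory Filter Topology Set

namespace Crest.Agent.H8.BC

noncomputable section

/-- If, for every `δ > 0`, some measurable test function is close to `1` in `L²(μ)` and close to `0`
in `L²` of Lebesgue measure on `[-R, R]`, where `μ` lives on `[-R, R]`, then `μ` is singular. -/
theorem mutuallySingular_of_test {μ : Measure ℝ} [IsFiniteMeasure μ] {R : ℝ}
    (hR : μ (Icc (-R) R)ᶜ = 0)
    (h : ∀ δ : ℝ, 0 < δ → ∃ φ : ℝ → ℝ, Measurable φ ∧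
      Integrable (fun x => (φ x - 1) ^ 2) μ ∧ ∫ x, (φ x - 1) ^ 2 ∂μ ≤ δ ∧
      IntegrableOn (fun x => φ x ^ 2) (Icc (-R) R) ∧ ∫ x in Icc (-R) R, φ x ^ 2 ≤ δ) :
    μ.MutuallySingular (volume : Measure ℝ) := by
  have hδ : ∀ n : ℕ, (0 : ℝ) < (1 / 4) * (1 / 2) ^ n := fun n => by positivity
  choose φ hφm hφi hφ1 hφj hφ2 using fun n : ℕ => h _ (hδ n)
  set E : ℕ → Set ℝ := fun n => {x | 1 / 4 ≤ (φ n x - 1) ^ 2} with hE
  set F : ℕ → Set ℝ := fun n => {x | 1 / 4 ≤ φ n x ^ 2} ∩ Icc (-R) R with hF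
  have hEm : ∀ n, MeasurableSet (E n) := fun n =>
    measurableSet_le measurable_const (((hφm n).sub_const 1).pow_const 2)
  have hFm' : ∀ n, MeasurableSet {x | 1 / 4 ≤ φ n x ^ 2} := fun n =>
    measurableSet_le measurable_const ((hφm n).pow_const 2)
  have hμE : ∀ n, μ (E n) ≤ ENNReal.ofReal ((1 / 2) ^ n) := by
    intro n
    have h1 := mul_meas_ge_le_integral_of_nonneg (μ := μ) (f := fun x => (φ n x - 1) ^ 2)
      (Eventually.of_forall fun x => sq_nonneg _) (hφi n) (1 / 4)
    have h2 : μ.real (E n) ≤ (1 / 2) ^ n := by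
      have := h1.trans (hφ1 n)
      simp only [hE]
      linarith
    rw [← ENNReal.ofReal_toReal (measure_ne_top μ (E n))]
    exact ENNReal.ofReal_le_ofReal h2
  have hvF : ∀ n, volume (F n) ≤ ENNReal.ofReal ((1 / 2) ^ n) := by
    intro n
    have h1 := mul_meas_ge_le_integral_of_nonneg (μ := volume.restrict (Icc (-R) R))
      (f := fun x => φ n x ^ 2)
      (Eventually.of_forall fun x => sq_nonneg _) (hφj n) (1 / 4)
    have h2 : (volume.restrict (Icc (-R) R)).real {x | 1 / 4 ≤ φ n x ^ 2} ≤ (1 / 2) ^ n := by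
      have := h1.trans (hφ2 n)
      linarith
    have h3 : volume (F n) = (volume.restrict (Icc (-R) R)) {x | 1 / 4 ≤ φ n x ^ 2} := by
      rw [Measure.restrict_apply (hFm' n)]
    rw [h3, ← ENNReal.ofReal_toReal (measure_ne_top _ _)]
    exact ENNReal.ofReal_le_ofReal h2
  have hsum : ∑' n : ℕ, ENNReal.ofReal ((1 / 2 : ℝ) ^ n) ≠ ⊤ := by
    rw [← ENNReal.ofReal_tsum_of_nonneg (fun n => by positivity)
      (summable_geometric_of_lt_one (by norm_num) (by norm_num))]
    exact ENNReal.ofReal_ne_top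
  have hsE : μ (limsup E atTop) = 0 := by
    apply measure_limsup_atTop_eq_zero
    exact ne_top_of_le_ne_top hsum (ENNReal.tsum_le_tsum hμE)
  have hsF : volume (limsup F atTop) = 0 := by
    apply measure_limsup_atTop_eq_zero
    exact ne_top_of_le_ne_top hsum (ENNReal.tsum_le_tsum hvF)
  refine ⟨limsup E atTop ∪ (Icc (-R) R)ᶜ, ?_, ?_, ?_⟩
  · exact (MeasurableSet.measurableSet_limsup hEm).union measurableSet_Icc.compl
  · exact measure_union_null hsE hR
  · apply measure_mono_null _ hsF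
    intro x hx
    rw [compl_union, compl_compl] at hx
    obtain ⟨hx1, hx2⟩ := hx
    rw [limsup_eq_iInf_iSup_of_nat]
    simp only [iInf_eq_iInter, iSup_eq_iUnion, mem_iInter, mem_iUnion]
    intro N
    rw [limsup_eq_iInf_iSup_of_nat] at hx1
    simp only [iInf_eq_iInter, iSup_eq_iUnion, mem_compl_iff, mem_iInter, mem_iUnion, not_forall,
      not_exists] at hx1
    obtain ⟨M, hM⟩ := hx1
    refine ⟨max M N, le_max_right _ _, ?_, hx2⟩
    have := hM (max M N) (le_max_left _ _)
    simp only [hE, mem_ofPred_eq, not_le] at this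
    simp only [mem_ofPred_eq]
    by_contra hcon
    rw [not_le] at hcon
    have h1 := abs_lt_of_sq_lt_sq (show (φ (max M N) x - 1) ^ 2 < (1 / 2) ^ 2 by linarith)
      (by norm_num)
    have h2 := abs_lt_of_sq_lt_sq (show (φ (max M N) x) ^ 2 < (1 / 2) ^ 2 by linarith)
      (by norm_num)
    rw [abs_lt] at h1 h2
    linarith [h1.1, h2.2]

/-- oscillatory integral -/
lemma integral_cos_mul (R s : ℝ) (hs : 0 < s) (hR : 0 ≤ R) :
    |∫ x in Icc (-R) R, Real.cos (s * x)| ≤ 2 / s := by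
  rw [integral_Icc_eq_integral_Ioc, ← intervalIntegral.integral_of_le (by linarith)]
  rw [intervalIntegral.integral_comp_mul_left (fun x => Real.cos x) hs.ne', integral_cos]
  rw [smul_eq_mul, abs_mul, abs_inv, abs_of_pos hs]
  have h1 : |Real.sin (s * R) - Real.sin (s * -R)| ≤ 2 := by
    calc |Real.sin (s * R) - Real.sin (s * -R)| ≤ |Real.sin (s * R)| + |Real.sin (s * -R)| :=
          abs_sub _ _
      _ ≤ 1 + 1 := add_le_add (Real.abs_sin_le_one _) (Real.abs_sin_le_one _)
      _ = 2 := by norm_num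
  rw [div_eq_inv_mul]
  exact mul_le_mul_of_nonneg_left h1 (by positivity)

end

end Crest.Agent.H8.BC
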