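import Mathlib
import Crest.Agent.H8.BC.CosT
import Crest.Agent.H8.BC.Sing

set_option autoImplicit false

open MeasureTheory Filter Topology Set

namespace Crest.Agent.H8.BC

noncomputable section

open Crest.AnalysisR

variable {c : ℝ}

lemma Phi_zero (hc0 : 0 < c) (hc1 : c < 1) : Phi c 0 = 1 := by
  have := isProb_bc hc0 hc1
  simp [Phi]

lemma Phi_neg (t : ℝ) : Phi c (-t) = Phi c t := by
  simp [Phi, Real.cos_neg]

lemma Phi_le_one (hc0 : 0 < c) (hc1 : c < 1) (t : ℝ) : Phi c t ≤ 1 := by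
  have := isProb_bc hc0 hc1
  have h : ‖Phi c t‖ ≤ 1 * (bernoulliConvolution c).real Set.univ := by
    apply norm_integral_le_of_norm_le_const
    filter_upwards with x
    rw [Real.norm_eq_abs]; exact Real.abs_cos_le_one _
  rw [probReal_univ, mul_one] at h
  exact (le_abs_self _).trans h

lemma integrable_cos (hc0 : 0 < c) (hc1 : c < 1) (t : ℝ) :
    Integrable (fun x => Real.cos (t * x)) (bernoulliConvolution c) := by
  have := isProb_bc hc0 hc1
  apply Integrable.of_bound (C := 1) (by fun_prop)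
  filter_upwards with x
  rw [Real.norm_eq_abs]; exact Real.abs_cos_le_one _

lemma cos_mul_cos_eq (a b : ℝ) :
    Real.cos a * Real.cos b = (1 / 2) * (Real.cos (a - b) + Real.cos (a + b)) := by
  rw [Real.cos_sub, Real.cos_add]; ring

lemma integral_cos_mul_cos (hc0 : 0 < c) (hc1 : c < 1) (s t : ℝ) :
    ∫ x, Real.cos (s * x) * Real.cos (t * x) ∂(bernoulliConvolution c)
      = (1 / 2) * (Phi c (s - t) + Phi c (s + t)) := by
  have : ∀ x, Real.cos (s * x) * Real.cos (t * x) =
      (1 / 2) * (Real.cos ((s - t) * x) + Real.cos ((s + t) * x)) := by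
    intro x
    rw [cos_mul_cos_eq]; ring_nf
  simp_rw [this]
  rw [integral_const_mul, integral_add (integrable_cos hc0 hc1 _) (integrable_cos hc0 hc1 _)]
  rfl

lemma integral_Icc_cos_mul_cos {R s t w : ℝ} (hR : 0 ≤ R) (hw : 0 < w) (hst : w ≤ s - t)
    (ht : 0 ≤ t) :
    |∫ x in Icc (-R) R, Real.cos (s * x) * Real.cos (t * x)| ≤ 2 / w := by
  have : ∀ x, Real.cos (s * x) * Real.cos (t * x) =
      (1 / 2) * (Real.cos ((s - t) * x) + Real.cos ((s + t) * x)) := by
    intro x
    rw [cos_mul_cos_eq]; ring_nf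
  simp_rw [this]
  have hi : ∀ u : ℝ, IntegrableOn (fun x => Real.cos (u * x)) (Icc (-R) R) := fun u =>
    (by fun_prop : Continuous fun x => Real.cos (u * x)).continuousOn.integrableOn_Icc
  rw [integral_const_mul, integral_add (hi _) (hi _)]
  have h1 := integral_cos_mul R (s - t) (by linarith) hR
  have h2 := integral_cos_mul R (s + t) (by linarith) hR
  have h3 : 2 / (s - t) ≤ 2 / w := div_le_div_of_nonneg_left (by norm_num) hw hst
  have h4 : 2 / (s + t) ≤ 2 / w := div_le_div_of_nonneg_left (by norm_num) hw (by linarith)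
  rw [abs_mul, abs_of_pos (by norm_num : (0 : ℝ) < 1 / 2)]
  have h5 := abs_add_le (∫ x in Icc (-R) R, Real.cos ((s - t) * x))
    (∫ x in Icc (-R) R, Real.cos ((s + t) * x))
  linarith

theorem final_test (hc0 : 0 < c) (hc1 : c < 1) (I : ℕ) (hI : 0 < I) (t : ℕ → ℝ) (κ δ : ℝ)
    (hκ : 0 < κ) (hδ : 0 ≤ δ)
    (h1 : ∀ i < I, κ ≤ |Phi c (t i)|)
    (h2 : ∀ i < I, ∀ j < i, |Phi c (t i - t j) - Phi c (t i) * Phi c (t j)|
        ≤ δ * |Phi c (t i) * Phi c (t j)| ∧
      |Phi c (t i + t j) - Phi c (t i) * Phi c (t j)| ≤ δ * |Phi c (t i) * Phi c (t j)|)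
    (h3 : ∀ i < I, ∀ j < i, (2 : ℝ) ^ (i + j) ≤ t i - t j) (h4 : ∀ i, 0 ≤ t i) :
    ∃ φ : ℝ → ℝ, Measurable φ ∧
      Integrable (fun x => (φ x - 1) ^ 2) (bernoulliConvolution c) ∧
      ∫ x, (φ x - 1) ^ 2 ∂(bernoulliConvolution c) ≤ 1 / (I * κ ^ 2) + δ ∧
      IntegrableOn (fun x => φ x ^ 2) (Icc (-(1 - c)⁻¹) (1 - c)⁻¹) ∧
      ∫ x in Icc (-(1 - c)⁻¹) (1 - c)⁻¹, φ x ^ 2 ≤ (2 * (1 - c)⁻¹ + 8) / (I * κ ^ 2) := by
  have hprob := isProb_bc hc0 hc1
  set μ := bernoulliConvolution c with hμ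
  set R := (1 - c)⁻¹ with hR
  have hR0 : 0 ≤ R := by rw [hR]; exact inv_nonneg.mpr (by linarith)
  have hIR : (0 : ℝ) < I := by exact_mod_cast hI
  set s := Finset.range I with hs
  have hne : ∀ i ∈ s, Phi c (t i) ≠ 0 := by
    intro i hi h0
    have := h1 i (Finset.mem_range.mp hi)
    rw [h0, abs_zero] at this
    linarith
  set φ : ℝ → ℝ := fun x => (1 / I) * ∑ i ∈ s, (Phi c (t i))⁻¹ * Real.cos (t i * x) with hφ
  have hφc : Continuous φ := by
    rw [hφ]
    fun_prop
  have hφsq : ∀ x, φ x ^ 2 = (1 / I) ^ 2 * ∑ i ∈ s, ∑ j ∈ s,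
      ((Phi c (t i))⁻¹ * (Phi c (t j))⁻¹) * (Real.cos (t i * x) * Real.cos (t j * x)) := by
    intro x
    rw [hφ]
    simp only
    rw [mul_pow, pow_two (∑ i ∈ s, _), Finset.sum_mul_sum]
    congr 1
    apply Finset.sum_congr rfl
    intro i _
    apply Finset.sum_congr rfl
    intro j _
    ring
  have hmm : ∀ (i j : ℕ), Integrable (fun x => Real.cos (t i * x) * Real.cos (t j * x)) μ := by
    intro i j
    apply Integrable.of_bound (C := 1) (by fun_prop)
    filter_upwards with x
    rw [Real.norm_eq_abs, abs_mul]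
    exact mul_le_one₀ (Real.abs_cos_le_one _) (abs_nonneg _) (Real.abs_cos_le_one _)
  have hφint : Integrable φ μ := by
    rw [hφ]
    apply Integrable.const_mul
    apply integrable_finsetSum
    intro i _
    exact (integrable_cos hc0 hc1 _).const_mul _
  have hφsqint : Integrable (fun x => φ x ^ 2) μ := by
    simp_rw [hφsq]
    apply Integrable.const_mul
    apply integrable_finsetSum
    intro i _
    apply integrable_finsetSum
    intro j _
    exact (hmm i j).const_mul _
  have hφ1 : ∫ x, φ x ∂μ = 1 := by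
    rw [hφ, integral_const_mul, integral_finsetSum]
    · have : ∀ i ∈ s, ∫ x, (Phi c (t i))⁻¹ * Real.cos (t i * x) ∂μ = 1 := by
        intro i hi
        rw [integral_const_mul]
        exact inv_mul_cancel₀ (hne i hi)
      rw [Finset.sum_congr rfl this]
      simp [hs]
      field_simp
    · intro i _
      exact (integrable_cos hc0 hc1 _).const_mul _
  have hexp : ∀ x, (φ x - 1) ^ 2 = φ x ^ 2 - 2 * φ x + 1 := fun x => by ring
  have hint1 : Integrable (fun x => (φ x - 1) ^ 2) μ := by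
    simp_rw [hexp]
    exact (hφsqint.sub (hφint.const_mul 2)).add (integrable_const 1)
  have hval1 : ∫ x, (φ x - 1) ^ 2 ∂μ = ∫ x, φ x ^ 2 ∂μ - 1 := by
    simp_rw [hexp]
    have hA : Integrable (fun x => φ x ^ 2 - 2 * φ x) μ := hφsqint.sub (hφint.const_mul 2)
    rw [integral_add hA (integrable_const 1),
      integral_sub hφsqint (hφint.const_mul 2), integral_const_mul, hφ1]
    simp
    ring
  -- the double sum for `μ`
  have hdouble : ∫ x, φ x ^ 2 ∂μ = (1 / I) ^ 2 * ∑ i ∈ s, ∑ j ∈ s,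
      ((Phi c (t i))⁻¹ * (Phi c (t j))⁻¹) *
        ((1 / 2) * (Phi c (t i - t j) + Phi c (t i + t j))) := by
    simp_rw [hφsq]
    rw [integral_const_mul, integral_finsetSum]
    · congr 1
      apply Finset.sum_congr rfl
      intro i _
      rw [integral_finsetSum]
      · apply Finset.sum_congr rfl
        intro j _
        rw [integral_const_mul, integral_cos_mul_cos hc0 hc1]
      · intro j _
        exact (hmm i j).const_mul _
    · intro i _
      apply integrable_finsetSum
      intro j _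
      exact (hmm i j).const_mul _
  have hoff : ∀ i < I, ∀ j < i, ((Phi c (t i))⁻¹ * (Phi c (t j))⁻¹) *
        ((1 / 2) * (Phi c (t i - t j) + Phi c (t i + t j))) ≤ 1 + δ := by
    intro i hi j hj
    have hni := hne i (Finset.mem_range.mpr hi)
    have hnj := hne j (Finset.mem_range.mpr (hj.trans hi))
    obtain ⟨ha, hb⟩ := h2 i hi j hj
    set p := Phi c (t i) * Phi c (t j) with hp
    have hpne : p ≠ 0 := mul_ne_zero hni hnj
    have e1 : ((Phi c (t i))⁻¹ * (Phi c (t j))⁻¹) = p⁻¹ := by rw [hp, mul_inv]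
    rw [e1]
    have h5 : |p⁻¹ * ((1 / 2) * ((Phi c (t i - t j) - p) + (Phi c (t i + t j) - p)))| ≤ δ := by
      rw [abs_mul, abs_inv, abs_mul (1 / 2 : ℝ) _, abs_of_pos (by norm_num : (0 : ℝ) < 1 / 2)]
      have h6 := abs_add_le (Phi c (t i - t j) - p) (Phi c (t i + t j) - p)
      have h7 : 0 < |p| := abs_pos.mpr hpne
      rw [inv_mul_le_iff₀ h7]
      nlinarith
    have h8 : p⁻¹ * ((1 / 2) * (Phi c (t i - t j) + Phi c (t i + t j))) =
        1 + p⁻¹ * ((1 / 2) * ((Phi c (t i - t j) - p) + (Phi c (t i + t j) - p))) := by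
      field_simp
      ring
    rw [h8]
    linarith [(abs_le.mp h5).2]
  have hG : ∀ i ∈ s, ∀ j ∈ s, ((Phi c (t i))⁻¹ * (Phi c (t j))⁻¹) *
        ((1 / 2) * (Phi c (t i - t j) + Phi c (t i + t j))) ≤
        (1 + δ) + if i = j then (κ ^ 2)⁻¹ else 0 := by
    intro i hi j hj
    rw [hs, Finset.mem_range] at hi hj
    rcases lt_trichotomy i j with h | h | h
    · rw [if_neg h.ne, add_zero]
      have := hoff j hj i h
      have e1 : Phi c (t i - t j) = Phi c (t j - t i) := by rw [← Phi_neg]; ring_nf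
      rw [e1, add_comm (t i) (t j), mul_comm (Phi c (t i))⁻¹]
      exact this
    · subst h
      rw [if_pos rfl, sub_self, Phi_zero hc0 hc1]
      have h5 := Phi_le_one hc0 hc1 (t i + t i)
      have h6 := h1 i hi
      have h7 : κ ^ 2 ≤ Phi c (t i) ^ 2 := by
        rw [← sq_abs (Phi c (t i))]
        exact pow_le_pow_left₀ hκ.le h6 2
      have h8 : (Phi c (t i))⁻¹ * (Phi c (t i))⁻¹ = (Phi c (t i) ^ 2)⁻¹ := by
        rw [pow_two, mul_inv]
      have h9 : (Phi c (t i) ^ 2)⁻¹ ≤ (κ ^ 2)⁻¹ := inv_anti₀ (by positivity) h7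
      have h10 : 0 ≤ (Phi c (t i) ^ 2)⁻¹ := by positivity
      rw [h8]
      nlinarith
    · rw [if_neg h.ne', add_zero]
      exact hoff i hi j h
  refine ⟨φ, hφc.measurable, hint1, ?_, ?_, ?_⟩
  · rw [hval1, hdouble]
    have h5 : ∑ i ∈ s, ∑ j ∈ s, ((Phi c (t i))⁻¹ * (Phi c (t j))⁻¹) *
        ((1 / 2) * (Phi c (t i - t j) + Phi c (t i + t j))) ≤
        ∑ i ∈ s, ∑ j ∈ s, ((1 + δ) + if i = j then (κ ^ 2)⁻¹ else 0) :=
      Finset.sum_le_sum fun i hi => Finset.sum_le_sum fun j hj => hG i hi j hj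
    have h6 : ∑ i ∈ s, ∑ j ∈ s, ((1 + δ) + if i = j then (κ ^ 2)⁻¹ else 0) =
        I ^ 2 * (1 + δ) + I * (κ ^ 2)⁻¹ := by
      simp_rw [Finset.sum_add_distrib]
      simp [hs, Finset.sum_ite_eq]
      rw [Finset.sum_congr rfl (g := fun _ => (κ ^ 2)⁻¹)]
      · simp; ring
      · intro i hi
        rw [if_pos (Finset.mem_range.mp hi)]
    have h7 : (1 / (I : ℝ)) ^ 2 * ∑ i ∈ s, ∑ j ∈ s, ((Phi c (t i))⁻¹ * (Phi c (t j))⁻¹) *
        ((1 / 2) * (Phi c (t i - t j) + Phi c (t i + t j))) ≤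
        (1 / (I : ℝ)) ^ 2 * (I ^ 2 * (1 + δ) + I * (κ ^ 2)⁻¹) := by
      rw [← h6]
      exact mul_le_mul_of_nonneg_left h5 (by positivity)
    have h8 : (1 / (I : ℝ)) ^ 2 * (I ^ 2 * (1 + δ) + I * (κ ^ 2)⁻¹) =
        1 + δ + 1 / (I * κ ^ 2) := by
      field_simp
    linarith
  · exact (hφc.pow 2).continuousOn.integrableOn_Icc
  · have hi : ∀ i j : ℕ, IntegrableOn (fun x => Real.cos (t i * x) * Real.cos (t j * x))
        (Icc (-R) R) := fun i j =>
      (by fun_prop : Continuous fun x => Real.cos (t i * x) *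
        Real.cos (t j * x)).continuousOn.integrableOn_Icc
    have hd2 : ∫ x in Icc (-R) R, φ x ^ 2 = (1 / I) ^ 2 * ∑ i ∈ s, ∑ j ∈ s,
        ((Phi c (t i))⁻¹ * (Phi c (t j))⁻¹) *
          ∫ x in Icc (-R) R, Real.cos (t i * x) * Real.cos (t j * x) := by
      simp_rw [hφsq]
      rw [integral_const_mul, integral_finsetSum]
      · congr 1
        apply Finset.sum_congr rfl
        intro i _
        rw [integral_finsetSum]
        · apply Finset.sum_congr rfl
          intro j _
          rw [integral_const_mul]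
        · intro j _
          exact (hi i j).const_mul _
      · intro i _
        apply integrable_finsetSum
        intro j _
        exact (hi i j).const_mul _
    rw [hd2]
    have hbd : ∀ i ∈ s, ∀ j ∈ s, ((Phi c (t i))⁻¹ * (Phi c (t j))⁻¹) *
          ∫ x in Icc (-R) R, Real.cos (t i * x) * Real.cos (t j * x) ≤
          (κ ^ 2)⁻¹ * ((if i = j then 2 * R else 0) + 2 * ((1 / 2) ^ i * (1 / 2) ^ j)) := by
      intro i hi' j hj'
      rw [hs, Finset.mem_range] at hi' hj'
      have hcoef : |(Phi c (t i))⁻¹ * (Phi c (t j))⁻¹| ≤ (κ ^ 2)⁻¹ := by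
        rw [abs_mul, abs_inv, abs_inv, pow_two, mul_inv]
        exact mul_le_mul (inv_anti₀ hκ (h1 i hi')) (inv_anti₀ hκ (h1 j hj')) (by positivity)
          (by positivity)
      have hpow : ∀ a b : ℕ, 2 / (2 : ℝ) ^ (a + b) = 2 * ((1 / 2) ^ a * (1 / 2) ^ b) := by
        intro a b
        rw [pow_add, one_div, inv_pow, inv_pow]
        field_simp
      have hint : |∫ x in Icc (-R) R, Real.cos (t i * x) * Real.cos (t j * x)| ≤
          (if i = j then 2 * R else 0) + 2 * ((1 / 2) ^ i * (1 / 2) ^ j) := by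
        rcases lt_trichotomy i j with h | h | h
        · rw [if_neg h.ne, zero_add]
          have := integral_Icc_cos_mul_cos (R := R) (s := t j) (t := t i) (w := 2 ^ (j + i)) hR0
            (by positivity) (h3 j hj' i h) (h4 i)
          rw [hpow] at this
          calc |∫ x in Icc (-R) R, Real.cos (t i * x) * Real.cos (t j * x)| =
              |∫ x in Icc (-R) R, Real.cos (t j * x) * Real.cos (t i * x)| := by
                congr 2; ext x; ring
            _ ≤ _ := this
            _ = _ := by ring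
        · subst h
          rw [if_pos rfl]
          have h5 : |∫ x in Icc (-R) R, Real.cos (t i * x) * Real.cos (t i * x)| ≤
              1 * volume.real (Icc (-R) R) := by
            rw [← Real.norm_eq_abs]
            apply norm_setIntegral_le_of_norm_le_const
            · rw [Real.volume_Icc]; exact ENNReal.ofReal_lt_top
            · intro x _
              rw [Real.norm_eq_abs, abs_mul]
              exact mul_le_one₀ (Real.abs_cos_le_one _) (abs_nonneg _) (Real.abs_cos_le_one _)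
          have h6 : volume.real (Icc (-R) R) = 2 * R := by
            rw [Real.volume_real_Icc_of_le (by linarith)]; ring
          rw [h6, one_mul] at h5
          have : (0 : ℝ) ≤ 2 * ((1 / 2) ^ i * (1 / 2) ^ i) := by positivity
          linarith
        · rw [if_neg h.ne', zero_add]
          have := integral_Icc_cos_mul_cos (R := R) (s := t i) (t := t j) (w := 2 ^ (i + j)) hR0
            (by positivity) (h3 i hi' j h) (h4 j)
          rw [hpow] at this
          exact this
      calc _ ≤ |((Phi c (t i))⁻¹ * (Phi c (t j))⁻¹) *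
          ∫ x in Icc (-R) R, Real.cos (t i * x) * Real.cos (t j * x)| := le_abs_self _
        _ = |(Phi c (t i))⁻¹ * (Phi c (t j))⁻¹| *
          |∫ x in Icc (-R) R, Real.cos (t i * x) * Real.cos (t j * x)| := abs_mul _ _
        _ ≤ _ := mul_le_mul hcoef hint (abs_nonneg _) (by positivity)
    have hgeo : ∑ i ∈ s, (1 / 2 : ℝ) ^ i ≤ 2 := by
      have := Summable.sum_le_tsum s (fun i _ => by positivity) summable_geometric_two
      rw [tsum_geometric_two] at this
      exact this
    have hgeo0 : 0 ≤ ∑ i ∈ s, (1 / 2 : ℝ) ^ i := Finset.sum_nonneg fun i _ => by positivity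
    have htot : ∑ i ∈ s, ∑ j ∈ s, ((Phi c (t i))⁻¹ * (Phi c (t j))⁻¹) *
          ∫ x in Icc (-R) R, Real.cos (t i * x) * Real.cos (t j * x) ≤
          (κ ^ 2)⁻¹ * (I * (2 * R) + 8) := by
      calc _ ≤ ∑ i ∈ s, ∑ j ∈ s, (κ ^ 2)⁻¹ *
            ((if i = j then 2 * R else 0) + 2 * ((1 / 2) ^ i * (1 / 2) ^ j)) :=
            Finset.sum_le_sum fun i hi => Finset.sum_le_sum fun j hj => hbd i hi j hj
        _ = (κ ^ 2)⁻¹ * (I * (2 * R) + 2 * ((∑ i ∈ s, (1 / 2 : ℝ) ^ i) *
            (∑ j ∈ s, (1 / 2 : ℝ) ^ j))) := by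
            rw [Finset.sum_mul_sum]
            simp_rw [← Finset.mul_sum, Finset.sum_add_distrib, ← Finset.mul_sum]
            congr 2
            simp [hs, Finset.sum_ite_eq]
            rw [Finset.sum_congr rfl (g := fun _ => 2 * R)]
            · simp
            · intro i hi
              rw [if_pos (Finset.mem_range.mp hi)]
        _ ≤ _ := by
            apply mul_le_mul_of_nonneg_left _ (by positivity)
            nlinarith
    calc (1 / (I : ℝ)) ^ 2 * ∑ i ∈ s, ∑ j ∈ s, ((Phi c (t i))⁻¹ * (Phi c (t j))⁻¹) *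
          ∫ x in Icc (-R) R, Real.cos (t i * x) * Real.cos (t j * x)
        ≤ (1 / (I : ℝ)) ^ 2 * ((κ ^ 2)⁻¹ * (I * (2 * R) + 8)) :=
          mul_le_mul_of_nonneg_left htot (by positivity)
      _ ≤ (1 / (I : ℝ)) ^ 2 * ((κ ^ 2)⁻¹ * (I * (2 * R) + 8 * I)) := by
          have : (1 : ℝ) ≤ I := by exact_mod_cast hI
          gcongr
          linarith
      _ = (2 * R + 8) / (I * κ ^ 2) := by
          field_simp

end

end Crest.Agent.H8.BC
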