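import Mathlib
import Crest.Agent.H8.BC.Iter
import Crest.Agent.H8.BC.Final

set_option autoImplicit false

open MeasureTheory Filter Topology Set

namespace Crest.Agent.H8.BC

noncomputable section

open Crest.AnalysisR

variable {β : ℝ} {α : ℂ} {A B : ℝ} {z : ℂ} {D : ℕ} {U ε κ : ℝ}

lemma abs_Phi_le_one {c : ℝ} (hc0 : 0 < c) (hc1 : c < 1) (t : ℝ) : |Phi c t| ≤ 1 := by
  have := isProb_bc hc0 hc1
  have h : ‖Phi c t‖ ≤ 1 * (bernoulliConvolution c).real Set.univ := by
    apply norm_integral_le_of_norm_le_const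
    filter_upwards with x
    rw [Real.norm_eq_abs]; exact Real.abs_cos_le_one _
  rwa [probReal_univ, mul_one] at h

lemma exp_four_le : Real.exp 4 ≤ 55 := by
  have h1 := Real.exp_one_lt_d9
  have h2 : Real.exp 4 = Real.exp 1 ^ 4 := by rw [← Real.exp_nat_mul]; norm_num
  rw [h2]
  have h3 : Real.exp 1 ^ 4 ≤ 2.7182818286 ^ 4 := pow_le_pow_left₀ (Real.exp_pos 1).le h1.le 4
  refine h3.trans (by norm_num)

set_option maxHeartbeats 1000000 in
theorem singular_of_good (h0 : Good β α D U ε κ) (hβ : 5 / 3 ≤ β) (hα : ‖α‖ = 1)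
    (hW : 3 < W D ε) :
    (bernoulliConvolution β⁻¹).MutuallySingular (volume : Measure ℝ) := by
  have hβ1 : 1 < β := by linarith
  have hβ0 : 0 < β := by linarith
  have hc0 : 0 < β⁻¹ := by positivity
  have hc1 : β⁻¹ < 1 := inv_lt_one_of_one_lt₀ hβ1
  have hprob := isProb_bc hc0 hc1
  apply mutuallySingular_of_test (ae_abs_le hc0 hc1)
  intro δ hδ
  set R := (1 - β⁻¹)⁻¹ with hR
  have hR0 : 0 ≤ R := by rw [hR]; exact inv_nonneg.mpr (by linarith)
  set H : ℝ := max 1000 ((220 * (2 * R + 8) + 638) / δ) with hH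
  have hH1 : 1000 ≤ H := le_max_left _ _
  have hH2 : 220 * (2 * R + 8) + 638 ≤ H * δ := by
    have := le_max_right 1000 ((220 * (2 * R + 8) + 638) / δ)
    rw [← hH, div_le_iff₀ hδ] at this
    exact this
  have hH0 : 0 < H := by linarith
  obtain ⟨D, U, ε, κ, hg, hMD, hMDε, hMκ⟩ := h0.exists_large hβ hα hW (H ^ 3)
    (one_le_pow₀ (by linarith))
  obtain ⟨A, B, z, hst, hκ⟩ := hg.ex
  have hε0 := hg.ε0
  have hε1 := hg.ε1
  have hD20 := hg.D20
  have hD20R : (20 : ℝ) ≤ D := by exact_mod_cast hD20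
  have hU1 := hg.U1
  have hU5 : U ≤ 5 := by have := hg.U5; linarith
  have hH3 : H ≤ H ^ 3 := by nlinarith [sq_nonneg H]
  have hH30 : 0 < H ^ 3 := by positivity
  have hDε : (D : ℝ) * ε ≤ 1 / H ^ 3 := by
    rw [le_div_iff₀ hH30]; linarith
  have hεH : ε ≤ 1 / H ^ 3 := by nlinarith
  have hH3' : 1 / H ^ 3 ≤ 1 / H := div_le_div_of_nonneg_left (by norm_num) hH0 hH3
  set I := ⌊1 / (2 * H * (ε ^ 2 * D))⌋₊ with hI
  have hD0 : (0 : ℝ) < D := by linarith
  have hpos : 0 < 2 * H * (ε ^ 2 * D) := by positivity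
  have hI1 : (I : ℝ) ≤ 1 / (2 * H * (ε ^ 2 * D)) := Nat.floor_le (by positivity)
  have hI2 : 1 / (2 * H * (ε ^ 2 * D)) < I + 1 := Nat.lt_floor_add_one _
  have hI1' : 2 * H * (ε ^ 2 * D) * I ≤ 1 := by
    rw [le_div_iff₀ hpos] at hI1; linarith
  -- `ε² D i ≤ 1 / (2H)`
  have hi : ∀ i : ℕ, i < I → ε ^ 2 * D * i ≤ 1 / (2 * H) := by
    intro i hiI
    have h1 : (i : ℝ) ≤ I := by exact_mod_cast hiI.le
    rw [le_div_iff₀ (by positivity)]
    have h2 : ε ^ 2 * D * i * (2 * H) ≤ 2 * H * (ε ^ 2 * D) * I := by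
      have : 2 * H * (ε ^ 2 * D) * i ≤ 2 * H * (ε ^ 2 * D) * I :=
        mul_le_mul_of_nonneg_left h1 hpos.le
      linarith
    linarith
  have hκ1 : Real.exp (-κ) ≤ 1 := hκ.trans (abs_Phi_le_one hc0 hc1 _)
  -- size of `I κ²`
  set κ' := Real.exp (-(κ + 2)) with hκ'
  have hκ'0 : 0 < κ' := Real.exp_pos _
  have hIκ : H / 220 ≤ I * κ' ^ 2 := by
    have e1 : κ' ^ 2 = Real.exp (-(2 * κ)) * Real.exp (-4) := by
      rw [hκ', ← Real.exp_nat_mul, ← Real.exp_add]
      congr 1; push_cast; ring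
    have e2 : 1 / 55 ≤ Real.exp (-4) := by
      rw [Real.exp_neg, one_div]
      exact inv_anti₀ (Real.exp_pos _) exp_four_le
    have e3 : Real.exp (-(2 * κ)) ≤ 1 := by
      have : Real.exp (-(2 * κ)) = Real.exp (-κ) ^ 2 := by
        rw [← Real.exp_nat_mul]; congr 1; push_cast; ring
      rw [this]
      exact pow_le_one₀ (Real.exp_pos _).le hκ1
    have e4 : 0 < Real.exp (-(2 * κ)) := Real.exp_pos _
    have e5 : H ^ 2 / 2 ≤ (I + 1) * Real.exp (-(2 * κ)) := by
      have f1 : H ^ 3 * (ε ^ 2 * D) * (1 / (2 * H * (ε ^ 2 * D))) = H ^ 2 / 2 := by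
        field_simp
      rw [← f1]
      calc H ^ 3 * (ε ^ 2 * D) * (1 / (2 * H * (ε ^ 2 * D)))
          ≤ Real.exp (-(2 * κ)) * (1 / (2 * H * (ε ^ 2 * D))) :=
            mul_le_mul_of_nonneg_right hMκ (by positivity)
        _ ≤ Real.exp (-(2 * κ)) * (I + 1) := mul_le_mul_of_nonneg_left hI2.le e4.le
        _ = _ := by ring
    have e6 : H ^ 2 / 2 - 1 ≤ I * Real.exp (-(2 * κ)) := by nlinarith
    have e7 : 0 ≤ (I : ℝ) * Real.exp (-(2 * κ)) := by positivity
    rw [e1, ← mul_assoc]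
    nlinarith
  have hI0 : 0 < I := by
    rcases Nat.eq_zero_or_pos I with h | h
    · rw [h] at hIκ
      simp at hIκ
      linarith
    · exact h
  set t : ℕ → ℝ := fun i => T A β (D + 2 * D * i) with ht
  have hApos : 0 < A := by
    have := hst.hA1
    by_contra hcon
    rw [not_lt] at hcon
    have : A * β ^ D ≤ 0 := mul_nonpos_of_nonpos_of_nonneg hcon (by positivity)
    linarith
  have htT : ∀ i, t i = Real.pi * (A * β ^ D) * (β ^ (2 * D)) ^ i := by
    intro i
    rw [ht]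
    simp only [T]
    rw [zpow_natCast, pow_add, pow_mul]
    ring
  have ht0 : ∀ i, 0 ≤ t i := by
    intro i
    rw [htT]
    have := Real.pi_pos
    positivity
  have hβD : 4 ≤ β ^ (2 * D) := by
    have h1 : β ^ 4 ≤ β ^ (2 * D) := pow_le_pow_right₀ hβ1.le (by omega)
    have h2 : (5 / 3 : ℝ) ^ 4 ≤ β ^ 4 := pow_le_pow_left₀ (by norm_num) hβ 4
    norm_num at h2
    linarith
  -- error bound
  have hEB : ∀ i < I, ∀ j < i, EB β D U ε (2 * D * (i - j)) (D + 2 * D * i) ≤ 209 / H := by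
    intro i hiI j hj
    have h1 := EB_le (ε := ε) hβ hU1 hU5 hε0.le hD20 (m := 2 * D * (i - j))
      (Nat.le_mul_of_pos_right _ (by omega)) (D + 2 * D * i)
    refine h1.trans ?_
    have e1 : (34 : ℝ) / D ≤ 34 / H := div_le_div_of_nonneg_left (by norm_num) hH0 (hH3.trans hMD)
    have e2 : 5 * ε * (10 + 5 * ((D : ℝ) + 1)) = 75 * ε + 25 * (D * ε) := by ring
    have e3 : 25 * ε ^ 2 * (((D + 2 * D * i : ℕ) : ℝ) + 1) = 25 * ε * (D * ε) + 50 * (ε ^ 2 * D * i) +
          25 * ε ^ 2 := by push_cast; ring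
    rw [e2, e3]
    have e4 := hi i hiI
    have e5 : 1 / (2 * H) = (1 / H) / 2 := by field_simp
    rw [e5] at e4
    have e6 : ε ≤ 1 / H := hεH.trans hH3'
    have e7 : (D : ℝ) * ε ≤ 1 / H := hDε.trans hH3'
    have e8 : 25 * ε * (D * ε) ≤ 25 * 1 * (D * ε) := by
      apply mul_le_mul_of_nonneg_right _ (by positivity)
      linarith
    have e9 : 25 * ε ^ 2 ≤ 25 * ε := by nlinarith
    have e10 : (34 : ℝ) / H = 34 * (1 / H) := by ring
    have e11 : (209 : ℝ) / H = 209 * (1 / H) := by ring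
    rw [e10] at e1
    rw [e11]
    linarith
  have hδ' : Real.exp (209 / H) - 1 ≤ 418 / H := by
    have h1 : |(209 : ℝ) / H| ≤ 1 := by
      rw [abs_of_pos (by positivity), div_le_one hH0]; linarith
    have h2 := Real.abs_exp_sub_one_le h1
    rw [abs_of_pos (by positivity : 0 < 209 / H)] at h2
    have h3 := le_abs_self (Real.exp (209 / H) - 1)
    have h4 : 2 * (209 / H) = 418 / H := by ring
    linarith
  have hδ'0 : 0 ≤ Real.exp (209 / H) - 1 := by
    have := Real.add_one_le_exp (209 / H)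
    have : 0 ≤ 209 / H := by positivity
    linarith
  obtain ⟨φ, f1, f2, f3, f4, f5⟩ := final_test hc0 hc1 I hI0 t κ' (Real.exp (209 / H) - 1) hκ'0 hδ'0
    (by
      intro i hiI
      have h1 := hst.lower hβ hα (by linarith) (2 * D * i)
      refine le_trans ?_ h1
      rw [hκ', neg_add, Real.exp_add]
      apply mul_le_mul hκ _ (Real.exp_pos _).le (abs_nonneg _)
      rw [Real.exp_le_exp]
      have h2 := hi i hiI
      have h3 : 1 / (2 * H) ≤ 1 / 2000 := div_le_div_of_nonneg_left (by norm_num) (by norm_num)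
        (by linarith)
      push_cast
      nlinarith)
    (by
      intro i hiI j hj
      have hm : 2 * D ≤ 2 * D * (i - j) := Nat.le_mul_of_pos_right _ (by omega)
      have h1 := hst.ratio hβ hα hε1 hU1 hU5 hg.rD hm (D + 2 * D * j)
      have h2 : D + 2 * D * j + 2 * D * (i - j) = D + 2 * D * i := by
        rw [add_assoc, ← Nat.mul_add]
        congr 2
        omega
      rw [h2] at h1
      have h3 := Real.exp_le_exp.mpr (hEB i hiI j hj)
      constructor
      · refine h1.1.trans ?_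
        apply mul_le_mul_of_nonneg_right _ (abs_nonneg _)
        linarith
      · refine h1.2.1.trans ?_
        apply mul_le_mul_of_nonneg_right _ (abs_nonneg _)
        linarith)
    (by
      intro i hiI j hj
      rw [htT, htT]
      have h1 : 1 ≤ A * β ^ D := hst.hA1
      have hpi := Real.pi_gt_three
      set b := β ^ (2 * D) with hb
      have h2 : b ^ j * 2 ≤ b ^ i := by
        have : b ^ (j + 1) ≤ b ^ i := pow_le_pow_right₀ (by linarith) (by omega)
        rw [pow_succ] at this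
        have h5 : 0 < b ^ j := by positivity
        nlinarith
      have h3 : (2 : ℝ) ^ (i + j) ≤ b ^ i := by
        calc (2 : ℝ) ^ (i + j) ≤ 2 ^ (2 * i) := pow_le_pow_right₀ (by norm_num) (by omega)
          _ = 4 ^ i := by rw [pow_mul]; norm_num
          _ ≤ b ^ i := pow_le_pow_left₀ (by norm_num) hβD i
      have h4 : 3 ≤ Real.pi * (A * β ^ D) := by nlinarith
      have h6 : 0 ≤ b ^ i - b ^ j := by
        have h5 : 0 < b ^ j := by positivity
        linarith
      have h7 := mul_le_mul_of_nonneg_right h4 h6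
      have h8 : Real.pi * (A * β ^ D) * b ^ i - Real.pi * (A * β ^ D) * b ^ j =
          Real.pi * (A * β ^ D) * (b ^ i - b ^ j) := by ring
      rw [h8]
      linarith)
    ht0
  have hIκ0 : 0 < (I : ℝ) * κ' ^ 2 := lt_of_lt_of_le (by positivity) hIκ
  have hb1 : 1 / ((I : ℝ) * κ' ^ 2) ≤ 220 / H := by
    rw [div_le_div_iff₀ hIκ0 hH0]
    linarith
  have hb2 : (2 * R + 8) / ((I : ℝ) * κ' ^ 2) ≤ (2 * R + 8) * (220 / H) := by
    rw [div_eq_mul_one_div]
    exact mul_le_mul_of_nonneg_left hb1 (by linarith)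
  refine ⟨φ, f1, f2, f3.trans ?_, f4, f5.trans (hb2.trans ?_)⟩
  · have : 220 / H + 418 / H ≤ δ := by
      rw [← add_div, div_le_iff₀ hH0]
      nlinarith
    linarith
  · rw [mul_div_assoc', div_le_iff₀ hH0]
    nlinarith

end

end Crest.Agent.H8.BC
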