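import Mathlib
import Crest.Agent.H8.BC.Base

set_option autoImplicit false

open MeasureTheory Filter Topology Set

namespace Crest.Agent.H8.BC

noncomputable section

/-- point of the unit circle with real part `x` -/
def circ (x : ℝ) : ℂ := ⟨x, √(1 - x ^ 2)⟩

lemma circ_normSq {x : ℝ} (hx : x ^ 2 ≤ 1) : Complex.normSq (circ x) = 1 := by
  unfold circ
  rw [Complex.normSq_mk, Real.mul_self_sqrt (by linarith)]
  ring

lemma circ_norm {x : ℝ} (hx : x ^ 2 ≤ 1) : ‖circ x‖ = 1 := by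
  rw [Complex.norm_def, circ_normSq hx, Real.sqrt_one]

lemma circ_ne_zero {x : ℝ} (hx : x ^ 2 ≤ 1) : circ x ≠ 0 := by
  intro h
  have := circ_norm hx
  rw [h, norm_zero] at this
  norm_num at this

lemma circ_inv {x : ℝ} (hx : x ^ 2 ≤ 1) : (circ x)⁻¹ = 2 * x - circ x := by
  rw [Complex.inv_def, circ_normSq hx]
  unfold circ
  apply Complex.ext <;> simp
  ring

lemma circ_sq {x : ℝ} (hx : x ^ 2 ≤ 1) : circ x ^ 2 = 2 * x * circ x - 1 := by
  have h1 := circ_inv hx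
  have h2 := mul_inv_cancel₀ (circ_ne_zero hx)
  rw [h1] at h2
  linear_combination -h2

theorem rep_int {β τ τ' : ℝ} (hβ : 0 < β) (hτ : β + β⁻¹ = τ) (hτ'1 : -2 < τ') (hτ'2 : τ' ≤ 2)
    (p q : ℤ) (hp : (p : ℝ) = -(τ + τ')) (hq : (q : ℝ) = 2 + τ * τ') (hne : τ - τ' ≠ 0)
    (s0 s2 : ℤ) (g a : ℝ) (hg : g = ((τ - 1) * s0 - s2) / (τ - τ'))
    (ha : a = (s2 - (τ' - 1) * s0) / (τ - τ')) (k : ℤ) :
    ∃ n : ℤ, (a / (1 + β)) * β ^ k + (a / (1 + β) * β) * β ^ (-k) +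
      (((g / (1 + τ' / 2) : ℝ) : ℂ) * (1 + (circ (τ' / 2))⁻¹) * circ (τ' / 2) ^ k).re = n := by
  have hx : (τ' / 2) ^ 2 ≤ 1 := by nlinarith
  set α := circ (τ' / 2) with hα
  have hα0 : α ≠ 0 := circ_ne_zero hx
  have hinv : α⁻¹ = τ' - α := by
    rw [hα, circ_inv hx]; push_cast; ring
  have hsq : α ^ 2 = τ' * α - 1 := by
    rw [hα, circ_sq hx]; push_cast; ring
  have hre : α.re = τ' / 2 := rfl
  have hβne : β ≠ 0 := hβ.ne'
  set A := a / (1 + β) with hA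
  set w : ℝ := g / (1 + τ' / 2) with hw
  set z : ℂ := (w : ℂ) * (1 + α⁻¹) with hz
  have h1β : (1 + β) ≠ 0 := by positivity
  have h1τ : (1 + τ' / 2) ≠ 0 := by linarith
  have hAβ : A * (1 + β) = a := by rw [hA]; exact div_mul_cancel₀ _ h1β
  have hwτ : w * (1 + τ' / 2) = g := by rw [hw]; exact div_mul_cancel₀ _ h1τ
  have hag : a + g = s0 := by
    rw [ha, hg]; field_simp; ring
  have hag2 : a * (τ - 1) + g * (τ' - 1) = s2 := by
    rw [ha, hg]; field_simp; ring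
  have hβ2 : β ^ 2 = τ * β - 1 := by
    rw [← hτ]; field_simp; ring
  have hβi : β⁻¹ = τ - β := by linarith
  -- the four initial values
  have v0 : A * β ^ (0 : ℤ) + A * β * β ^ (-(0 : ℤ)) + (z * α ^ (0 : ℤ)).re = s0 := by
    rw [hz, hinv]
    simp
    rw [hre]
    linear_combination hAβ + hwτ + hag
  have v1 : A * β ^ (1 : ℤ) + A * β * β ^ (-(1 : ℤ)) + (z * α ^ (1 : ℤ)).re = s0 := by
    have e1 : z * α ^ (1 : ℤ) = w * (α + 1) := by
      rw [hz, zpow_one]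
      have := inv_mul_cancel₀ hα0
      linear_combination (w : ℂ) * this
    rw [e1]
    have e2 : A * β * β ^ (-(1 : ℤ)) = A := by
      rw [zpow_neg, zpow_one]; field_simp
    rw [e2, zpow_one, Complex.re_ofReal_mul]
    simp
    rw [hre]
    linear_combination hAβ + hwτ + hag
  have v2 : A * β ^ (2 : ℤ) + A * β * β ^ (-(2 : ℤ)) + (z * α ^ (2 : ℤ)).re = s2 := by
    have e1 : z * α ^ (2 : ℤ) = w * (α ^ 2 + α) := by
      rw [hz]
      have := inv_mul_cancel₀ hα0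
      rw [show α ^ (2 : ℤ) = α ^ 2 by norm_cast]
      linear_combination (w : ℂ) * α * this
    rw [e1]
    have e2 : A * β * β ^ (-(2 : ℤ)) = A * β⁻¹ := by
      rw [zpow_neg, show β ^ (2 : ℤ) = β ^ 2 by norm_cast]; field_simp
    rw [e2, show β ^ (2 : ℤ) = β ^ 2 by norm_cast, Complex.re_ofReal_mul, hsq, hβ2, hβi]
    simp
    rw [hre]
    linear_combination (τ - 1) * hAβ + (τ' - 1) * hwτ + hag2
  have vm : A * β ^ (-1 : ℤ) + A * β * β ^ (-(-1 : ℤ)) + (z * α ^ (-1 : ℤ)).re = s2 := by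
    have e1 : z * α ^ (-1 : ℤ) = w * (α⁻¹ + α⁻¹ ^ 2) := by
      rw [hz, zpow_neg, zpow_one]; ring
    rw [e1, hinv]
    have e3 : ((τ' : ℂ) - α) + ((τ' : ℂ) - α) ^ 2 = -α + τ' + τ' ^ 2 - τ' * α - 1 := by
      linear_combination hsq
    rw [e3]
    rw [neg_neg, zpow_neg, zpow_one, Complex.re_ofReal_mul, mul_assoc A β, ← pow_two, hβ2, hβi]
    have e4 : (-α + (τ' : ℂ) + (τ' : ℂ) ^ 2 - (τ' : ℂ) * α - 1).re =
        -(τ' / 2) + τ' + τ' ^ 2 - τ' * (τ' / 2) - 1 := by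
      have : -α + (τ' : ℂ) + (τ' : ℂ) ^ 2 - (τ' : ℂ) * α - 1 =
          ((τ' + τ' ^ 2 - 1 : ℝ) : ℂ) + ((-1 - τ' : ℝ) : ℂ) * α := by push_cast; ring
      rw [this, Complex.add_re, Complex.ofReal_re, Complex.re_ofReal_mul, hre]
      ring
    rw [e4]
    linear_combination (τ - 1) * hAβ + (τ' - 1) * hwτ + hag2
  -- recurrence
  apply int_of_rec (fun k : ℤ => A * β ^ k + A * β * β ^ (-k) + (z * α ^ k).re) p q _
    ⟨s2, vm⟩ ⟨s0, v0⟩ ⟨s0, v1⟩ ⟨s2, v2⟩ k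
  intro k
  have r1 : ∀ b : ℝ, b ≠ 0 → b + b⁻¹ = τ → b ^ (k + 2) + p * b ^ (k + 1) + q * b ^ k +
      p * b ^ (k - 1) + b ^ (k - 2) = 0 := by
    intro b hb0 hb
    have hb2 : b ^ 2 = τ * b - 1 := by rw [← hb]; field_simp; ring
    rw [zpow_add₀ hb0, zpow_add₀ hb0, zpow_sub₀ hb0, zpow_sub₀ hb0, zpow_one,
      show b ^ (2 : ℤ) = b ^ 2 by norm_cast, hp, hq]
    have hb3 : b ^ 2 * (b ^ 2) + -(τ + τ') * b * b ^ 2 + (2 + τ * τ') * b ^ 2 + -(τ + τ') * b + 1 = 0 := by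
      linear_combination (b ^ 2 - τ' * b + 1) * hb2
    field_simp
    linear_combination (b ^ k) * hb3
  have r2 := r1 β hβne hτ
  have r3 := r1 β⁻¹ (inv_ne_zero hβne) (by rw [inv_inv, ← hτ]; ring)
  have r4 : α ^ (k + 2) + p * α ^ (k + 1) + q * α ^ k + p * α ^ (k - 1) + α ^ (k - 2) = 0 := by
    rw [zpow_add₀ hα0, zpow_add₀ hα0, zpow_sub₀ hα0, zpow_sub₀ hα0, zpow_one,
      show α ^ (2 : ℤ) = α ^ 2 by norm_cast]
    have hp' : (p : ℂ) = -(τ + τ') := by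
      have : ((p : ℝ) : ℂ) = ((-(τ + τ') : ℝ) : ℂ) := by rw [hp]
      push_cast at this; exact this
    have hq' : (q : ℂ) = 2 + τ * τ' := by
      have : ((q : ℝ) : ℂ) = ((2 + τ * τ' : ℝ) : ℂ) := by rw [hq]
      push_cast at this; exact this
    rw [hp', hq']
    have hb3 : α ^ 2 * (α ^ 2) + -((τ : ℂ) + τ') * α * α ^ 2 + (2 + τ * τ') * α ^ 2 +
        -((τ : ℂ) + τ') * α + 1 = 0 := by
      linear_combination (α ^ 2 - τ * α + 1) * hsq
    field_simp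
    linear_combination (α ^ k) * hb3
  have r5 : (z * α ^ (k + 2)).re + p * (z * α ^ (k + 1)).re + q * (z * α ^ k).re +
      p * (z * α ^ (k - 1)).re + (z * α ^ (k - 2)).re = 0 := by
    have e1 : ∀ (c : ℤ) (u : ℂ), (c : ℝ) * u.re = ((c : ℂ) * u).re := by
      intro c u
      have : (c : ℂ) = ((c : ℝ) : ℂ) := by push_cast; rfl
      rw [this, Complex.re_ofReal_mul]
    rw [e1, e1, e1, ← Complex.add_re, ← Complex.add_re, ← Complex.add_re, ← Complex.add_re]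
    have e2 : z * α ^ (k + 2) + p * (z * α ^ (k + 1)) + q * (z * α ^ k) + p * (z * α ^ (k - 1)) +
        z * α ^ (k - 2) = z * (α ^ (k + 2) + p * α ^ (k + 1) + q * α ^ k + p * α ^ (k - 1) +
        α ^ (k - 2)) := by ring
    rw [e2, r4, mul_zero, Complex.zero_re]

  have r3' : β ^ (-(k + 2)) + p * β ^ (-(k + 1)) + q * β ^ (-k) + p * β ^ (-(k - 1)) +
      β ^ (-(k - 2)) = 0 := by
    simpa only [inv_zpow'] using r3
  linear_combination A * r2 + A * β * r3' + r5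

lemma rep_norm {τ' g : ℝ} (hτ'1 : -2 < τ') (hτ'2 : τ' ≤ 2)
    (h : 4 * g ^ 2 ≤ (11 / 20000) ^ 2 * (2 + τ')) :
    ‖((g / (1 + τ' / 2) : ℝ) : ℂ) * (1 + (circ (τ' / 2))⁻¹)‖ ≤ 11 / 20000 := by
  have hx : (τ' / 2) ^ 2 ≤ 1 := by nlinarith
  have h1 : ‖1 + (circ (τ' / 2))⁻¹‖ ^ 2 = 2 + τ' := by
    rw [circ_inv hx, ← Complex.normSq_eq_norm_sq]
    have h2 := circ_normSq hx
    rw [Complex.normSq_apply] at h2 ⊢
    simp
    have h3 : (circ (τ' / 2)).re = τ' / 2 := rfl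
    rw [h3] at h2 ⊢
    linear_combination h2
  have h2 : 0 < 1 + τ' / 2 := by linarith
  apply le_of_sq_le_sq _ (by norm_num)
  rw [norm_mul, mul_pow, h1, Complex.norm_real, Real.norm_eq_abs, sq_abs, div_pow,
    div_mul_eq_mul_div, div_le_iff₀ (by positivity)]
  nlinarith

end

end Crest.Agent.H8.BC
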