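import Mathlib
import Crest.Agent.H8.BC.Rep
import Crest.Agent.H8.BC.Concl

set_option autoImplicit false

open MeasureTheory Filter Topology Set

namespace Crest.Agent.H8.BC

open Crest Crest.AnalysisR

lemma chain_step {A c l u cl cu l' u' : ℝ} {i : ℕ} (hy : l ≤ A * c ^ i ∧ A * c ^ i ≤ u)
    (hcl : cl ≤ c) (hcu : c ≤ cu) (h0 : 0 ≤ l) (hc0 : 0 ≤ cl) (h1 : l' ≤ l * cl)
    (h2 : u * cu ≤ u') : l' ≤ A * c ^ (i + 1) ∧ A * c ^ (i + 1) ≤ u' := by
  rw [pow_succ, ← mul_assoc]
  constructor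
  · exact h1.trans (mul_le_mul hy.1 hcl hc0 (h0.trans hy.1))
  · exact (mul_le_mul hy.2 hcu (hc0.trans hcl) (h0.trans (hy.1.trans hy.2))).trans h2

lemma hy_1 {c A : ℝ} (hcl : 580691831991/1000000000000 ≤ c) (hcu : c ≤ 290345915997/500000000000)
    (hAl : 132251701037/1000000000 ≤ A) (hAu : A ≤ 66125850519/500000000) :
    (∀ i : ℕ, i ≤ 14 → ∃ h : ℤ, h + 1 / 2 + 343 / 5000 ≤ A * c ^ i ∧
      A * c ^ i ≤ h + 3 / 2 - 343 / 5000) ∧ A * c ^ 14 ≤ 1 / 9 := by
  have y0 : 132251701037/1000000000 ≤ A * c ^ 0 ∧ A * c ^ 0 ≤ 66125850519/500000000 := by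
    rw [pow_zero, mul_one]; exact ⟨hAl, hAu⟩
  have y1 : 76797482559/1000000000 ≤ A * c ^ 1 ∧ A * c ^ 1 ≤ 76797482561/1000000000 :=
    chain_step (i := 0) y0 hcl hcu (by norm_num) (by norm_num) (by norm_num) (by norm_num)
  have y2 : 44595670839/1000000000 ≤ A * c ^ 2 ∧ A * c ^ 2 ≤ 44595670841/1000000000 :=
    chain_step (i := 1) y1 hcl hcu (by norm_num) (by norm_num) (by norm_num) (by norm_num)
  have y3 : 12948170899/500000000 ≤ A * c ^ 3 ∧ A * c ^ 3 ≤ 129481709/5000000 :=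
    chain_step (i := 2) y2 hcl hcu (by norm_num) (by norm_num) (by norm_num) (by norm_num)
  have y4 : 187972427/12500000 ≤ A * c ^ 4 ∧ A * c ^ 4 ≤ 7518897081/500000000 :=
    chain_step (i := 3) y3 hcl hcu (by norm_num) (by norm_num) (by norm_num) (by norm_num)
  have y5 : 8732324239/1000000000 ≤ A * c ^ 5 ∧ A * c ^ 5 ≤ 4366162121/500000000 :=
    chain_step (i := 4) y4 hcl hcu (by norm_num) (by norm_num) (by norm_num) (by norm_num)
  have y6 : 5070789359/1000000000 ≤ A * c ^ 6 ∧ A * c ^ 6 ≤ 2535394681/500000000 :=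
    chain_step (i := 5) y5 hcl hcu (by norm_num) (by norm_num) (by norm_num) (by norm_num)
  have y7 : 1472282981/500000000 ≤ A * c ^ 7 ∧ A * c ^ 7 ≤ 588913193/200000000 :=
    chain_step (i := 6) y6 hcl hcu (by norm_num) (by norm_num) (by norm_num) (by norm_num)
  have y8 : 854942701/500000000 ≤ A * c ^ 8 ∧ A * c ^ 8 ≤ 341977081/200000000 :=
    chain_step (i := 7) y7 hcl hcu (by norm_num) (by norm_num) (by norm_num) (by norm_num)
  have y9 : 496458243/500000000 ≤ A * c ^ 9 ∧ A * c ^ 9 ≤ 992916489/1000000000 :=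
    chain_step (i := 8) y8 hcl hcu (by norm_num) (by norm_num) (by norm_num) (by norm_num)
  have y10 : 576578493/1000000000 ≤ A * c ^ 10 ∧ A * c ^ 10 ≤ 9009039/15625000 :=
    chain_step (i := 9) y9 hcl hcu (by norm_num) (by norm_num) (by norm_num) (by norm_num)
  have y11 : 334814421/1000000000 ≤ A * c ^ 11 ∧ A * c ^ 11 ≤ 41851803/125000000 :=
    chain_step (i := 10) y10 hcl hcu (by norm_num) (by norm_num) (by norm_num) (by norm_num)
  have y12 : 194423999/1000000000 ≤ A * c ^ 12 ∧ A * c ^ 12 ≤ 97212001/500000000 :=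
    chain_step (i := 11) y11 hcl hcu (by norm_num) (by norm_num) (by norm_num) (by norm_num)
  have y13 : 28225107/250000000 ≤ A * c ^ 13 ∧ A * c ^ 13 ≤ 11290043/100000000 :=
    chain_step (i := 12) y12 hcl hcu (by norm_num) (by norm_num) (by norm_num) (by norm_num)
  have y14 : 16390089/250000000 ≤ A * c ^ 14 ∧ A * c ^ 14 ≤ 32780179/500000000 :=
    chain_step (i := 13) y13 hcl hcu (by norm_num) (by norm_num) (by norm_num) (by norm_num)
  refine ⟨?_, by linarith [y14.2]⟩
  intro i hi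
  interval_cases i
  · exact ⟨131, by push_cast; linarith [y0.1], by push_cast; linarith [y0.2]⟩
  · exact ⟨76, by push_cast; linarith [y1.1], by push_cast; linarith [y1.2]⟩
  · exact ⟨44, by push_cast; linarith [y2.1], by push_cast; linarith [y2.2]⟩
  · exact ⟨25, by push_cast; linarith [y3.1], by push_cast; linarith [y3.2]⟩
  · exact ⟨14, by push_cast; linarith [y4.1], by push_cast; linarith [y4.2]⟩
  · exact ⟨8, by push_cast; linarith [y5.1], by push_cast; linarith [y5.2]⟩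
  · exact ⟨4, by push_cast; linarith [y6.1], by push_cast; linarith [y6.2]⟩
  · exact ⟨2, by push_cast; linarith [y7.1], by push_cast; linarith [y7.2]⟩
  · exact ⟨1, by push_cast; linarith [y8.1], by push_cast; linarith [y8.2]⟩
  · exact ⟨0, by push_cast; linarith [y9.1], by push_cast; linarith [y9.2]⟩
  · exact ⟨0, by push_cast; linarith [y10.1], by push_cast; linarith [y10.2]⟩
  · exact ⟨-1, by push_cast; linarith [y11.1], by push_cast; linarith [y11.2]⟩
  · exact ⟨-1, by push_cast; linarith [y12.1], by push_cast; linarith [y12.2]⟩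
  · exact ⟨-1, by push_cast; linarith [y13.1], by push_cast; linarith [y13.2]⟩
  · exact ⟨-1, by push_cast; linarith [y14.1], by push_cast; linarith [y14.2]⟩


lemma hy_2 {c A : ℝ} (hcl : 265505028229/500000000000 ≤ c) (hcu : c ≤ 531010056461/1000000000000)
    (hAl : 21352114737/31250000 ≤ A) (hAu : A ≤ 683267671587/1000000000) :
    (∀ i : ℕ, i ≤ 14 → ∃ h : ℤ, h + 1 / 2 + 343 / 5000 ≤ A * c ^ i ∧
      A * c ^ i ≤ h + 3 / 2 - 343 / 5000) ∧ A * c ^ 14 ≤ 1 / 9 := by
  have y0 : 21352114737/31250000 ≤ A * c ^ 0 ∧ A * c ^ 0 ≤ 683267671587/1000000000 := by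
    rw [pow_zero, mul_one]; exact ⟨hAl, hAu⟩
  have y1 : 362822004863/1000000000 ≤ A * c ^ 1 ∧ A * c ^ 1 ≤ 90705501217/250000000 :=
    chain_step (i := 0) y0 hcl hcu (by norm_num) (by norm_num) (by norm_num) (by norm_num)
  have y2 : 96331066643/500000000 ≤ A * c ^ 2 ∧ A * c ^ 2 ≤ 192662133291/1000000000 :=
    chain_step (i := 1) y1 hcl hcu (by norm_num) (by norm_num) (by norm_num) (by norm_num)
  have y3 : 102305530273/1000000000 ≤ A * c ^ 3 ∧ A * c ^ 3 ≤ 102305530277/1000000000 :=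
    chain_step (i := 2) y2 hcl hcu (by norm_num) (by norm_num) (by norm_num) (by norm_num)
  have y4 : 27162632703/500000000 ≤ A * c ^ 4 ∧ A * c ^ 4 ≤ 54325265409/1000000000 :=
    chain_step (i := 3) y3 hcl hcu (by norm_num) (by norm_num) (by norm_num) (by norm_num)
  have y5 : 115389049/4000000 ≤ A * c ^ 5 ∧ A * c ^ 5 ≤ 28847262253/1000000000 :=
    chain_step (i := 4) y4 hcl hcu (by norm_num) (by norm_num) (by norm_num) (by norm_num)
  have y6 : 3829546589/250000000 ≤ A * c ^ 6 ∧ A * c ^ 6 ≤ 7659093179/500000000 :=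
    chain_step (i := 5) y5 hcl hcu (by norm_num) (by norm_num) (by norm_num) (by norm_num)
  have y7 : 8134111001/1000000000 ≤ A * c ^ 7 ∧ A * c ^ 7 ≤ 8134111003/1000000000 :=
    chain_step (i := 6) y6 hcl hcu (by norm_num) (by norm_num) (by norm_num) (by norm_num)
  have y8 : 4319294741/1000000000 ≤ A * c ^ 8 ∧ A * c ^ 8 ≤ 4319294743/1000000000 :=
    chain_step (i := 7) y7 hcl hcu (by norm_num) (by norm_num) (by norm_num) (by norm_num)
  have y9 : 143349309/62500000 ≤ A * c ^ 9 ∧ A * c ^ 9 ≤ 1146794473/500000000 :=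
    chain_step (i := 8) y8 hcl hcu (by norm_num) (by norm_num) (by norm_num) (by norm_num)
  have y10 : 608959397/500000000 ≤ A * c ^ 10 ∧ A * c ^ 10 ≤ 304479699/250000000 :=
    chain_step (i := 9) y9 hcl hcu (by norm_num) (by norm_num) (by norm_num) (by norm_num)
  have y11 : 646727127/1000000000 ≤ A * c ^ 11 ∧ A * c ^ 11 ≤ 646727129/1000000000 :=
    chain_step (i := 10) y10 hcl hcu (by norm_num) (by norm_num) (by norm_num) (by norm_num)
  have y12 : 21463663/62500000 ≤ A * c ^ 12 ∧ A * c ^ 12 ≤ 34341861/100000000 :=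
    chain_step (i := 11) y11 hcl hcu (by norm_num) (by norm_num) (by norm_num) (by norm_num)
  have y13 : 91179367/500000000 ≤ A * c ^ 13 ∧ A * c ^ 13 ≤ 11397421/62500000 :=
    chain_step (i := 12) y12 hcl hcu (by norm_num) (by norm_num) (by norm_num) (by norm_num)
  have y14 : 96834321/1000000000 ≤ A * c ^ 14 ∧ A * c ^ 14 ≤ 96834323/1000000000 :=
    chain_step (i := 13) y13 hcl hcu (by norm_num) (by norm_num) (by norm_num) (by norm_num)
  refine ⟨?_, by linarith [y14.2]⟩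
  intro i hi
  interval_cases i
  · exact ⟨682, by push_cast; linarith [y0.1], by push_cast; linarith [y0.2]⟩
  · exact ⟨362, by push_cast; linarith [y1.1], by push_cast; linarith [y1.2]⟩
  · exact ⟨192, by push_cast; linarith [y2.1], by push_cast; linarith [y2.2]⟩
  · exact ⟨101, by push_cast; linarith [y3.1], by push_cast; linarith [y3.2]⟩
  · exact ⟨53, by push_cast; linarith [y4.1], by push_cast; linarith [y4.2]⟩
  · exact ⟨28, by push_cast; linarith [y5.1], by push_cast; linarith [y5.2]⟩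
  · exact ⟨14, by push_cast; linarith [y6.1], by push_cast; linarith [y6.2]⟩
  · exact ⟨7, by push_cast; linarith [y7.1], by push_cast; linarith [y7.2]⟩
  · exact ⟨3, by push_cast; linarith [y8.1], by push_cast; linarith [y8.2]⟩
  · exact ⟨1, by push_cast; linarith [y9.1], by push_cast; linarith [y9.2]⟩
  · exact ⟨0, by push_cast; linarith [y10.1], by push_cast; linarith [y10.2]⟩
  · exact ⟨0, by push_cast; linarith [y11.1], by push_cast; linarith [y11.2]⟩
  · exact ⟨-1, by push_cast; linarith [y12.1], by push_cast; linarith [y12.2]⟩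
  · exact ⟨-1, by push_cast; linarith [y13.1], by push_cast; linarith [y13.2]⟩
  · exact ⟨-1, by push_cast; linarith [y14.1], by push_cast; linarith [y14.2]⟩

/-- bounds on the inverse of `β` from its trace -/
lemma inv_bounds {β l u : ℝ} (h1 : 1 < β) (hl : l < 1) (hu : u < 1)
    (hl2 : 0 < l ^ 2 - (β + β⁻¹) * l + 1) (hu2 : u ^ 2 - (β + β⁻¹) * u + 1 < 0) :
    l ≤ β⁻¹ ∧ β⁻¹ ≤ u := by
  have hne : β ≠ 0 := by positivity
  have hf : ∀ x : ℝ, x ^ 2 - (β + β⁻¹) * x + 1 = (x - β⁻¹) * (x - β) := by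
    intro x
    have := mul_inv_cancel₀ hne
    linear_combination -this
  rw [hf] at hl2 hu2
  constructor
  · by_contra hcon
    push Not at hcon
    have : (l - β⁻¹) * (l - β) < 0 := mul_neg_of_pos_of_neg (by linarith) (by linarith)
    linarith
  · by_contra hcon
    push Not at hcon
    have : 0 < (u - β⁻¹) * (u - β) := mul_pos_of_neg_of_neg (by linarith) (by linarith)
    linarith

lemma quot_bounds {N D1 D2 nl nu d1l d1u d2l d2u l u : ℝ} (hN : nl ≤ N ∧ N ≤ nu)
    (h1 : d1l ≤ D1 ∧ D1 ≤ d1u) (h2 : d2l ≤ D2 ∧ D2 ≤ d2u) (h1p : 0 < d1l) (h2p : 0 < d2l)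
    (hl0 : 0 ≤ l) (hl : l * (d1u * d2u) ≤ nl) (hu0 : 0 ≤ u) (hu : nu ≤ u * (d1l * d2l)) :
    l ≤ N / D1 / D2 ∧ N / D1 / D2 ≤ u := by
  have hD1 : 0 < D1 := by linarith
  have hD2 : 0 < D2 := by linarith
  rw [div_div, le_div_iff₀ (by positivity), div_le_iff₀ (by positivity)]
  constructor
  · calc l * (D1 * D2) ≤ l * (d1u * d2u) := by
          apply mul_le_mul_of_nonneg_left _ hl0
          exact mul_le_mul h1.2 h2.2 hD2.le (hD1.le.trans h1.2)
      _ ≤ nl := hl
      _ ≤ N := hN.1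
  · calc N ≤ nu := hN.2
      _ ≤ u * (d1l * d2l) := hu
      _ ≤ u * (D1 * D2) := by
          apply mul_le_mul_of_nonneg_left _ hu0
          exact mul_le_mul h1.1 h2.1 h2p.le hD1.le

theorem case_one {β : ℝ} (h1 : 1 < β) (hτ : (β + β⁻¹) ^ 2 - (β + β⁻¹) - 3 = 0) :
    (bernoulliConvolution β⁻¹).MutuallySingular (volume : Measure ℝ) := by
  have hβ0 : 0 < β := by linarith
  have hi0 : 0 < β⁻¹ := inv_pos.mpr hβ0
  obtain ⟨τ, hτd⟩ : ∃ τ, β + β⁻¹ = τ := ⟨_, rfl⟩
  rw [hτd] at hτ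
  have hτ0 : 0 < τ := by rw [← hτd]; positivity
  have t1 : 2.302775637731 ≤ τ := by nlinarith
  have t2 : τ ≤ 2.302775637732 := by nlinarith
  have hc := inv_bounds (β := β) (l := 580691831991/1000000000000) (u := 290345915997/500000000000)
    h1 (by norm_num) (by norm_num) (by rw [hτd]; nlinarith) (by rw [hτd]; nlinarith)
  set τ' := 1 - τ with hτ'
  have hp : (((-1 : ℤ)) : ℝ) = -(τ + τ') := by rw [hτ']; push_cast; ring
  have hq : (((-1 : ℤ)) : ℝ) = 2 + τ * τ' := by rw [hτ']; push_cast; linear_combination hτ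
  set g : ℝ := ((τ - 1) * ((360 : ℤ) : ℝ) - ((469 : ℤ) : ℝ)) / (τ - τ') with hg
  set a : ℝ := (((469 : ℤ) : ℝ) - (τ' - 1) * ((360 : ℤ) : ℝ)) / (τ - τ') with ha
  have hne : τ - τ' ≠ 0 := by rw [hτ']; apply ne_of_gt; linarith
  have hrep := rep_int hβ0 hτd (by rw [hτ']; linarith) (by rw [hτ']; linarith) (-1) (-1) hp hq hne
    360 469 g a hg ha
  have hgb : -(215 / 1000000) ≤ g ∧ g ≤ 0 := by
    rw [hg, hτ']
    push_cast
    constructor
    · rw [le_div_iff₀ (by linarith)]; linarith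
    · apply div_nonpos_of_nonpos_of_nonneg <;> linarith
  have hz := rep_norm (τ' := τ') (g := g) (by rw [hτ']; linarith) (by rw [hτ']; linarith) (by
    have : g ^ 2 ≤ (215 / 1000000) ^ 2 := by
      rw [← neg_sq g]
      apply pow_le_pow_left₀ <;> linarith [hgb.1, hgb.2]
    rw [hτ']
    nlinarith)
  have hA := quot_bounds (N := ((469 : ℤ) : ℝ) - (τ' - 1) * ((360 : ℤ) : ℝ)) (D1 := τ - τ')
    (D2 := 1 + β) (nl := 469 + 360 * 2.302775637731) (nu := 469 + 360 * 2.302775637732)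
    (d1l := 2 * 2.302775637731 - 1) (d1u := 2 * 2.302775637732 - 1)
    (d2l := 1 + 2.302775637731 - 290345915997/500000000000)
    (d2u := 1 + 2.302775637732 - 580691831991/1000000000000)
    (l := 132251701037/1000000000) (u := 66125850519/500000000)
    (by rw [hτ']; push_cast; constructor <;> linarith)
    (by rw [hτ']; constructor <;> linarith)
    (by constructor <;> linarith [hc.1, hc.2])
    (by norm_num) (by norm_num) (by norm_num) (by norm_num) (by norm_num) (by norm_num)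
  rw [← ha] at hA
  obtain ⟨hy, h14⟩ := hy_1 hc.1 hc.2 hA.1 hA.2
  have hβ53 : 5 / 3 ≤ β := by linarith [hc.2]
  have hα : ‖circ (τ' / 2)‖ = 1 := circ_norm (by rw [hτ']; nlinarith)
  exact singular_of_good (base_good β (circ (τ' / 2)) (a / (1 + β)) _ hβ53 hα hrep hz
    (by linarith [hA.1]) hy h14) hβ53 hα W_base

theorem case_two {β : ℝ} (h1 : 1 < β) (hτ : (β + β⁻¹) ^ 2 - 2 * (β + β⁻¹) - 1 = 0) :
    (bernoulliConvolution β⁻¹).MutuallySingular (volume : Measure ℝ) := by
  have hβ0 : 0 < β := by linarith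
  have hi0 : 0 < β⁻¹ := inv_pos.mpr hβ0
  obtain ⟨τ, hτd⟩ : ∃ τ, β + β⁻¹ = τ := ⟨_, rfl⟩
  rw [hτd] at hτ
  have hτ0 : 0 < τ := by rw [← hτd]; positivity
  have t1 : 2.414213562373 ≤ τ := by nlinarith
  have t2 : τ ≤ 2.414213562374 := by nlinarith
  have hc := inv_bounds (β := β) (l := 265505028229/500000000000) (u := 531010056461/1000000000000)
    h1 (by norm_num) (by norm_num) (by rw [hτd]; nlinarith) (by rw [hτd]; nlinarith)
  set τ' := 2 - τ with hτ'
  have hp : (((-2 : ℤ)) : ℝ) = -(τ + τ') := by rw [hτ']; push_cast; ring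
  have hq : (((1 : ℤ)) : ℝ) = 2 + τ * τ' := by rw [hτ']; push_cast; linear_combination hτ
  set g : ℝ := ((τ - 1) * ((1970 : ℤ) : ℝ) - ((2786 : ℤ) : ℝ)) / (τ - τ') with hg
  set a : ℝ := (((2786 : ℤ) : ℝ) - (τ' - 1) * ((1970 : ℤ) : ℝ)) / (τ - τ') with ha
  have hne : τ - τ' ≠ 0 := by rw [hτ']; apply ne_of_gt; linarith
  have hrep := rep_int hβ0 hτd (by rw [hτ']; linarith) (by rw [hτ']; linarith) (-2) 1 hp hq hne
    1970 2786 g a hg ha
  have hgb : 0 ≤ g ∧ g ≤ 255 / 1000000 := by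
    rw [hg, hτ']
    push_cast
    constructor
    · apply div_nonneg <;> linarith
    · rw [div_le_iff₀ (by linarith)]; linarith
  have hz := rep_norm (τ' := τ') (g := g) (by rw [hτ']; linarith) (by rw [hτ']; linarith) (by
    have : g ^ 2 ≤ (255 / 1000000) ^ 2 := by
      apply pow_le_pow_left₀ <;> linarith [hgb.1, hgb.2]
    rw [hτ']
    nlinarith)
  have hA := quot_bounds (N := ((2786 : ℤ) : ℝ) - (τ' - 1) * ((1970 : ℤ) : ℝ)) (D1 := τ - τ')
    (D2 := 1 + β) (nl := 2786 + 1970 * 1.414213562373) (nu := 2786 + 1970 * 1.414213562374)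
    (d1l := 2 * 2.414213562373 - 2) (d1u := 2 * 2.414213562374 - 2)
    (d2l := 1 + 2.414213562373 - 531010056461/1000000000000)
    (d2u := 1 + 2.414213562374 - 265505028229/500000000000)
    (l := 21352114737/31250000) (u := 683267671587/1000000000)
    (by rw [hτ']; push_cast; constructor <;> linarith)
    (by rw [hτ']; constructor <;> linarith)
    (by constructor <;> linarith [hc.1, hc.2])
    (by norm_num) (by norm_num) (by norm_num) (by norm_num) (by norm_num) (by norm_num)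
  rw [← ha] at hA
  obtain ⟨hy, h14⟩ := hy_2 hc.1 hc.2 hA.1 hA.2
  have hβ53 : 5 / 3 ≤ β := by linarith [hc.2]
  have hα : ‖circ (τ' / 2)‖ = 1 := circ_norm (by rw [hτ']; nlinarith)
  exact singular_of_good (base_good β (circ (τ' / 2)) (a / (1 + β)) _ hβ53 hα hrep hz
    (by linarith [hA.1]) hy h14) hβ53 hα W_base

end Crest.Agent.H8.BC
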